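import Vale.Agent.P072.Dissip

/-! A priori bounds and absorption for positive trajectories. -/

namespace Vale.Agent.P072

open Finset Real Set Filter Topology

variable {d : ℕ}

/-- A positive continuous path on `[a, b]` whose increments obey every linear inequality valid
for the mass-action fields with rates in `[ε, ε⁻¹]`. -/
def Traj (R : Finset ((Fin d → ℕ) × (Fin d → ℕ))) (ε : ℝ) (x : ℝ → Fin d → ℝ) (a b : ℝ) : Prop :=
  ContinuousOn x (Icc a b) ∧ (∀ t ∈ Icc a b, ∀ i, 0 < x t i) ∧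
    ∀ s t, a ≤ s → s ≤ t → t ≤ b → ∀ (w : Fin d → ℝ) (κ : ℝ),
      (∀ u ∈ Icc s t, ∀ k : (Fin d → ℕ) × (Fin d → ℕ) → ℝ, (∀ r ∈ R, ε ≤ k r ∧ k r ≤ ε⁻¹) →
        ∑ i, w i * massAction R k (x u) i ≤ -κ) →
      ∑ i, w i * (x t i - x s i) ≤ -κ * (t - s)

lemma Traj.mono {R : Finset ((Fin d → ℕ) × (Fin d → ℕ))} {ε : ℝ} {x : ℝ → Fin d → ℝ}
    {a b a' b' : ℝ} (h : Traj R ε x a b) (ha : a ≤ a') (hb : b' ≤ b) : Traj R ε x a' b' :=
  ⟨h.1.mono (Icc_subset_Icc ha hb), fun t ht => h.2.1 t (Icc_subset_Icc ha hb ht),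
    fun s t h1 h2 h3 => h.2.2 s t (le_trans ha h1) h2 (le_trans h3 hb)⟩

lemma chain_le {u : ℝ → ℝ} {a b h : ℝ} (hh : 0 < h) (hab : a ≤ b)
    (H : ∀ s t, a ≤ s → s ≤ t → t ≤ b → t - s ≤ h → u t ≤ u s) : u b ≤ u a := by
  have main : ∀ n : ℕ, ∀ t, a ≤ t → t ≤ b → t - a ≤ n * h → u t ≤ u a := by
    intro n
    induction n with
    | zero =>
      intro t h1 _ h3
      have : t = a := by simp at h3; linarith
      rw [this]
    | succ n ih =>
      intro t h1 h2 h3
      rcases le_or_gt (t - a) h with h4 | h4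
      · exact H a t le_rfl h1 h2 h4
      · push_cast at h3
        exact le_trans (H (t - h) t (by linarith) (by linarith) h2 (by linarith))
          (ih (t - h) (by linarith) (by linarith) (by linarith))
  obtain ⟨n, hn⟩ := exists_nat_ge ((b - a) / h)
  exact main n b hab le_rfl (by rwa [div_le_iff₀ hh] at hn)

lemma lyap {R : Finset ((Fin d → ℕ) × (Fin d → ℕ))} {ε : ℝ} {x : ℝ → Fin d → ℝ} {a b : ℝ}
    (T : Traj R ε x a b) (hab : a ≤ b) (A : Finset (Fin d → ℝ)) (V : (Fin d → ℝ) → ℝ)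
    (κ δ : ℝ) (Q : (Fin d → ℝ) → Prop)
    (hV : ∀ t ∈ Icc a b, ∀ η, 0 < η → ∃ w : Fin d → ℝ,
      (∀ y, (∀ i, 0 < y i) → V (x t) - η + ∑ i, w i * (y i - x t i) ≤ V y) ∧ Q w ∧
      ∀ c ∈ A, 0 < ∑ i, c i * w i → δ + 1 ≤ ∑ i, c i * Real.log (x t i))
    (hdis : ∀ u ∈ Icc a b, ∀ w, Q w →
      (∀ c ∈ A, 0 < ∑ i, c i * w i → δ ≤ ∑ i, c i * Real.log (x u i)) →
      ∀ k : (Fin d → ℕ) × (Fin d → ℕ) → ℝ, (∀ r ∈ R, ε ≤ k r ∧ k r ≤ ε⁻¹) →
        ∑ i, w i * massAction R k (x u) i ≤ -κ) :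
    V (x b) + κ * b ≤ V (x a) + κ * a := by
  obtain ⟨α, hα, hαA⟩ := exists_ub A (fun c => ∑ i, |c i|)
  have hcont : ContinuousOn (fun t => fun i => Real.log (x t i)) (Icc a b) := by
    rw [continuousOn_pi]
    intro i
    exact ((continuous_apply i).comp_continuousOn T.1).log (fun t ht => (T.2.1 t ht i).ne')
  have huc := isCompact_Icc.uniformContinuousOn_of_continuous hcont
  rw [Metric.uniformContinuousOn_iff_le] at huc
  obtain ⟨h, hh, huc⟩ := huc (1 / (α + 1)) (by positivity)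
  apply chain_le (u := fun t => V (x t) + κ * t) hh hab
  intro s t h1 h2 h3 h4
  have ht : t ∈ Icc a b := ⟨le_trans h1 h2, h3⟩
  have hs : s ∈ Icc a b := ⟨h1, le_trans h2 h3⟩
  apply le_of_forall_pos_le_add
  intro η hη
  obtain ⟨w, hw1, hw2, hw3⟩ := hV t ht η hη
  have h5 := T.2.2 s t h1 h2 h3 w κ (fun u hu k hk => by
    have hu' : u ∈ Icc a b := ⟨le_trans h1 hu.1, le_trans hu.2 h3⟩
    refine hdis u hu' w hw2 (fun c hc hpos => ?_) k hk
    have h6 := hw3 c hc hpos
    have h7 := huc t ht u hu' (by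
      rw [Real.dist_eq, abs_le]; constructor <;> linarith [hu.1, hu.2])
    have h8 : ∑ i, c i * Real.log (x t i) - ∑ i, c i * Real.log (x u i) ≤ α * (1 / (α + 1)) := by
      rw [← Finset.sum_sub_distrib]
      calc ∑ i, (c i * Real.log (x t i) - c i * Real.log (x u i))
          ≤ ∑ i, |c i| * (1 / (α + 1)) := by
            refine Finset.sum_le_sum (fun i _ => ?_)
            rw [← mul_sub]
            have h9 := le_trans (dist_le_pi_dist _ _ i) h7
            rw [Real.dist_eq] at h9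
            calc c i * (Real.log (x t i) - Real.log (x u i))
                ≤ |c i * (Real.log (x t i) - Real.log (x u i))| := le_abs_self _
              _ = |c i| * |Real.log (x t i) - Real.log (x u i)| := abs_mul _ _
              _ ≤ |c i| * (1 / (α + 1)) := mul_le_mul_of_nonneg_left h9 (abs_nonneg _)
        _ = (∑ i, |c i|) * (1 / (α + 1)) := by rw [Finset.sum_mul]
        _ ≤ α * (1 / (α + 1)) := mul_le_mul_of_nonneg_right (hαA c hc) (by positivity)
    have h10 : α * (1 / (α + 1)) ≤ 1 := by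
      rw [mul_one_div, div_le_one (by positivity)]; linarith
    linarith)
  have h11 := hw1 (x s) (T.2.1 s hs)
  have h12 : ∑ i, w i * (x s i - x t i) = -∑ i, w i * (x t i - x s i) := by
    rw [← Finset.sum_neg_distrib]; exact Finset.sum_congr rfl (fun i _ => by ring)
  show V (x t) + κ * t ≤ V (x s) + κ * s + η
  nlinarith

/-- the Lyapunov function of a subset of species does not increase -/
theorem lyapI {R : Finset ((Fin d → ℕ) × (Fin d → ℕ))} (hR : WeaklyReversible R) {ε : ℝ}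
    (hε : 0 < ε) (I : Finset (Fin d)) (N : ℝ) (hN : 0 ≤ N) :
    ∃ (V : (Fin d → ℝ) → ℝ) (C : ℝ), 0 ≤ C ∧
      (∀ x, (∀ i, 0 < x i) → V x ≤ ∑ i ∈ I, (x i * Real.log (x i) + C * x i)) ∧
      (∀ x, (∀ i, 0 < x i) → ∑ i ∈ I, (x i * Real.log (x i) - C * x i) ≤ V x) ∧
      ∀ x a b, a ≤ b → Traj R ε x a b →
        (∀ t ∈ Icc a b, ∀ j, j ∉ I → |Real.log (x t j)| ≤ N) → V (x b) ≤ V (x a) := by
  obtain ⟨δ, hδ⟩ := dissip hR hε
  obtain ⟨V, C, hC, h1, h2, h3⟩ := keyI I (tests R) (δ + 1) N hN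
  refine ⟨V, C, hC, h1, h2, fun x a b hab T hx => ?_⟩
  have := lyap T hab (tests R) V 0 δ (fun _ => True) (fun t ht η hη => by
      obtain ⟨w, hw1, _, hw3⟩ := h3 (x t) (T.2.1 t ht) (hx t ht) η hη
      exact ⟨w, hw1, trivial, fun c hc hp => (hw3 c hc hp).2⟩)
    (fun u hu w _ hw k hk => by
      have h4 := hδ (x u) w k (T.2.1 u hu) hk (compat_of_tests (T.2.1 u hu) hw)
      have h5 := down_nonneg R (T.2.1 u hu) w
      nlinarith)
  linarith

lemma xlogx_lower {z C : ℝ} (hz : 0 < z) : -Real.exp C ≤ z * Real.log z - C * z := by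
  have h := Sys.exp_ge_tangent hz C
  nlinarith

lemma xlogx_upper {z C M : ℝ} (hz : 0 < z) (hC : 0 ≤ C) (hM : z ≤ M) :
    z * Real.log z + C * z ≤ M * M + C * M := by
  have h := Real.log_le_sub_one_of_pos hz
  nlinarith

lemma xlogx_small {z C : ℝ} (hz : 0 < z) : -(2 * Real.sqrt z) - C * z ≤ z * Real.log z - C * z := by
  have hs : 0 < Real.sqrt z := Real.sqrt_pos.2 hz
  have h1 : Real.log z = 2 * Real.log (Real.sqrt z) := by
    rw [Real.log_sqrt hz.le]; ring
  have h2 := Real.one_sub_inv_le_log_of_pos hs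
  have h3 : z = Real.sqrt z * Real.sqrt z := (Real.mul_self_sqrt hz.le).symm
  have h4 : z * (Real.sqrt z)⁻¹ = Real.sqrt z := by
    nth_rewrite 1 [h3]; field_simp
  rw [h1]
  nlinarith

theorem apriori_upper {R : Finset ((Fin d → ℕ) × (Fin d → ℕ))} (hR : WeaklyReversible R) {ε : ℝ}
    (hε : 0 < ε) (M : ℝ) : ∃ M' : ℝ, ∀ x a b, Traj R ε x a b → (∀ i, x a i ≤ M) →
      ∀ t ∈ Icc a b, ∀ i, x t i ≤ M' := by
  classical
  obtain ⟨V, C, hC, h1, h2, h3⟩ := lyapI hR hε Finset.univ 0 le_rfl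
  refine ⟨max (Real.exp (C + 1)) (d * (M * M + C * M) + d * Real.exp C),
    fun x a b T hx t ht i => ?_⟩
  have ha : a ∈ Icc a b := ⟨le_rfl, le_trans ht.1 ht.2⟩
  have h4 := h3 x a t ht.1 (T.mono le_rfl ht.2) (fun _ _ j hj => absurd (Finset.mem_univ j) hj)
  have h5 := h1 _ (T.2.1 a ha)
  have h6 := h2 _ (T.2.1 t ht)
  have h7 : ∑ j, (x a j * Real.log (x a j) + C * x a j) ≤ d * (M * M + C * M) := by
    have := Finset.sum_le_sum (s := Finset.univ)
      (fun j _ => xlogx_upper (T.2.1 a ha j) hC (hx j))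
    simpa only [Finset.sum_const, Finset.card_univ, Fintype.card_fin, nsmul_eq_mul] using this
  have h8 : x t i * Real.log (x t i) - C * x t i + Real.exp C ≤
      ∑ j, (x t j * Real.log (x t j) - C * x t j + Real.exp C) :=
    Finset.single_le_sum (f := fun j => x t j * Real.log (x t j) - C * x t j + Real.exp C)
      (fun j _ => by have := xlogx_lower (C := C) (T.2.1 t ht j); linarith) (Finset.mem_univ i)
  rw [Finset.sum_add_distrib] at h8
  simp only [Finset.sum_const, Finset.card_univ, Fintype.card_fin, nsmul_eq_mul] at h8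
  rcases le_or_gt (x t i) (Real.exp (C + 1)) with h9 | h9
  · exact le_trans h9 (le_max_left _ _)
  · refine le_trans ?_ (le_max_right _ _)
    have hp := T.2.1 t ht i
    have h10 : C + 1 ≤ Real.log (x t i) := by
      rw [Real.le_log_iff_exp_le hp]; exact h9.le
    have h11 := Real.exp_pos C
    nlinarith

/-- lower bound for one subset of species -/
lemma lower_step {R : Finset ((Fin d → ℕ) × (Fin d → ℕ))} (hR : WeaklyReversible R) {ε : ℝ}
    (hε : 0 < ε) {m M' e : ℝ} (hm : 0 < m) (he : 0 < e) (I : Finset (Fin d)) (hI : I.Nonempty) :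
    ∃ e' : ℝ, 0 < e' ∧ ∀ x a b, Traj R ε x a b → (∀ i, m ≤ x a i) →
      (∀ t ∈ Icc a b, ∀ i, x t i ≤ M') →
      (∀ t ∈ Icc a b, ∀ j, j ∉ I → (∀ i ∈ I, x t i < e) → e ≤ x t j) →
      ∀ t ∈ Icc a b, ∃ i ∈ I, e' ≤ x t i := by
  classical
  obtain ⟨V, C, hC, h1, h2, h3⟩ := lyapI hR hε I (max |Real.log e| |Real.log M'|)
    (le_trans (abs_nonneg _) (le_max_left _ _))
  set r := min (min (e / 2) m) (Real.exp (-C - 1)) with hr
  have hr0 : 0 < r := lt_min (lt_min (by linarith) hm) (Real.exp_pos _)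
  have hre : r < e := lt_of_le_of_lt (le_trans (min_le_left _ _) (min_le_left _ _)) (by linarith)
  have hrm : r ≤ m := le_trans (min_le_left _ _) (min_le_right _ _)
  have hrC : r ≤ Real.exp (-C - 1) := min_le_right _ _
  -- a small threshold
  obtain ⟨e', he'0, he'r, he'⟩ : ∃ e' : ℝ, 0 < e' ∧ e' < r ∧
      d * (2 * Real.sqrt e' + C * e') < r := by
    have hc : Continuous (fun z : ℝ => d * (2 * Real.sqrt z + C * z)) := by fun_prop
    have h0 : ∀ᶠ z in 𝓝 (0 : ℝ), d * (2 * Real.sqrt z + C * z) < r :=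
      hc.continuousAt.eventually_lt continuousAt_const (by simpa using hr0)
    have h4 : ∀ᶠ z in 𝓝 (0 : ℝ), z < r := eventually_lt_nhds hr0
    obtain ⟨z, hz1, hz2⟩ := (((h0.and h4).filter_mono nhdsWithin_le_nhds).and
      (self_mem_nhdsWithin (s := Ioi (0 : ℝ)))).exists
    exact ⟨z, hz2, hz1.2, hz1.1⟩
  refine ⟨e', he'0, fun x a b T hxa hxM hxe t ht => ?_⟩
  by_contra hcon
  push Not at hcon
  set g : ℝ → ℝ := fun s => I.sup' hI (fun i => x s i) with hg
  have hgc : ContinuousOn g (Icc a b) :=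
    ContinuousOn.finset_sup'_apply hI (fun i _ => (continuous_apply i).comp_continuousOn T.1)
  have hgt : g t < r := by
    rw [hg]; simp only [Finset.sup'_lt_iff]
    exact fun i hi => lt_trans (hcon i hi) he'r
  have hga : r ≤ g a := by
    obtain ⟨i, hi⟩ := hI
    exact le_trans (le_trans hrm (hxa i)) (Finset.le_sup' (fun i => x a i) hi)
  -- last time where the maximum over `I` equals `r`
  have hsub : Icc a t ⊆ Icc a b := Icc_subset_Icc le_rfl ht.2
  have hK : IsCompact (Icc a t ∩ g ⁻¹' {r}) :=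
    isCompact_Icc.of_isClosed_subset
      ((hgc.mono hsub).preimage_isClosed_of_isClosed isClosed_Icc isClosed_singleton)
      inter_subset_left
  have hne : (Icc a t ∩ g ⁻¹' {r}).Nonempty := by
    obtain ⟨s, hs1, hs2⟩ := intermediate_value_Icc' ht.1 (hgc.mono hsub) ⟨hgt.le, hga⟩
    exact ⟨s, hs1, hs2⟩
  obtain ⟨s, ⟨hs1, hs2⟩, hsmax⟩ := hK.exists_isGreatest hne
  have hs2' : g s = r := hs2
  have hle : ∀ u ∈ Icc s t, g u ≤ r := by
    intro u hu
    by_contra hlt
    push Not at hlt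
    have hsub2 : Icc u t ⊆ Icc a b := Icc_subset_Icc (le_trans hs1.1 hu.1) ht.2
    obtain ⟨v, hv1, hv2⟩ := intermediate_value_Icc' hu.2 (hgc.mono hsub2) ⟨hgt.le, hlt.le⟩
    have hvs : v ≤ s := hsmax ⟨⟨le_trans (le_trans hs1.1 hu.1) hv1.1, hv1.2⟩, hv2⟩
    have : u = s := le_antisymm (le_trans hv1.1 hvs) hu.1
    rw [this] at hlt
    linarith
  have hle' : ∀ u ∈ Icc s t, ∀ i ∈ I, x u i ≤ r :=
    fun u hu i hi => le_trans (Finset.le_sup' (fun i => x u i) hi) (hle u hu)
  have h4 := h3 x s t hs1.2 (T.mono hs1.1 ht.2) (fun u hu j hj => by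
    have hu' : u ∈ Icc a b := ⟨le_trans hs1.1 hu.1, le_trans hu.2 ht.2⟩
    have h5 := hxe u hu' j hj (fun i hi => lt_of_le_of_lt (hle' u hu i hi) hre)
    have h6 := Real.log_le_log he h5
    have h7 := Real.log_le_log (T.2.1 u hu' j) (hxM u hu' j)
    rw [abs_le]
    constructor
    · linarith [neg_abs_le (Real.log e), le_max_left |Real.log e| |Real.log M'|]
    · linarith [le_abs_self (Real.log M'), le_max_right |Real.log e| |Real.log M'|])
  have hs' : s ∈ Icc a b := hsub hs1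
  have h5 := h1 _ (T.2.1 s hs')
  have h6 := h2 _ (T.2.1 t ht)
  have h7 : ∑ i ∈ I, (x s i * Real.log (x s i) + C * x s i) ≤ -r := by
    obtain ⟨i0, hi0, hi0e⟩ := Finset.exists_mem_eq_sup' hI (fun i => x s i)
    have h8 : ∑ i ∈ I, (x s i * Real.log (x s i) + C * x s i) ≤ ∑ i ∈ I, -x s i := by
      refine Finset.sum_le_sum (fun i hi => ?_)
      have hp := T.2.1 s hs' i
      have h9 : Real.log (x s i) ≤ -C - 1 := by
        rw [Real.log_le_iff_le_exp hp]
        exact le_trans (hle' s ⟨le_rfl, hs1.2⟩ i hi) hrC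
      nlinarith
    rw [Finset.sum_neg_distrib] at h8
    have h10 : x s i0 ≤ ∑ i ∈ I, x s i :=
      Finset.single_le_sum (f := fun i => x s i) (fun i _ => (T.2.1 s hs' i).le) hi0
    have h11 : x s i0 = r := by rw [← hs2', hg]; exact hi0e.symm
    linarith
  have h12 : -(d * (2 * Real.sqrt e' + C * e')) ≤
      ∑ i ∈ I, (x t i * Real.log (x t i) - C * x t i) := by
    have h13 : ∑ i ∈ I, -(2 * Real.sqrt e' + C * e') ≤
        ∑ i ∈ I, (x t i * Real.log (x t i) - C * x t i) := by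
      refine Finset.sum_le_sum (fun i hi => ?_)
      have h14 := xlogx_small (C := C) (T.2.1 t ht i)
      have h15 := Real.sqrt_le_sqrt (hcon i hi).le
      have h16 := mul_le_mul_of_nonneg_left (hcon i hi).le hC
      linarith
    rw [Finset.sum_const, nsmul_eq_mul] at h13
    have h17 : (I.card : ℝ) ≤ d := by
      have := Finset.card_le_univ I
      rw [Fintype.card_fin] at this
      exact_mod_cast this
    have h18 : 0 ≤ 2 * Real.sqrt e' + C * e' := by positivity
    nlinarith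
  linarith

theorem apriori {R : Finset ((Fin d → ℕ) × (Fin d → ℕ))} (hR : WeaklyReversible R) {ε : ℝ}
    (hε : 0 < ε) {m : ℝ} (hm : 0 < m) (M : ℝ) : ∃ m' M' : ℝ, 0 < m' ∧
      ∀ x a b, Traj R ε x a b → (∀ i, m ≤ x a i ∧ x a i ≤ M) →
      ∀ t ∈ Icc a b, ∀ i, m' ≤ x t i ∧ x t i ≤ M' := by
  classical
  obtain ⟨M', hM'⟩ := apriori_upper hR hε M
  have main : ∀ n : ℕ, ∃ e : ℝ, 0 < e ∧ ∀ x a b, Traj R ε x a b →
      (∀ i, m ≤ x a i ∧ x a i ≤ M) → ∀ t ∈ Icc a b, ∀ I : Finset (Fin d), I.Nonempty →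
      d < I.card + n → ∃ i ∈ I, e ≤ x t i := by
    intro n
    induction n with
    | zero =>
      refine ⟨1, one_pos, fun x a b _ _ t _ I _ h => ?_⟩
      have := Finset.card_le_univ I
      rw [Fintype.card_fin] at this
      omega
    | succ n ih =>
      obtain ⟨e, he, H⟩ := ih
      have h1 : ∀ I : Finset (Fin d), ∃ e' : ℝ, 0 < e' ∧ (I.Nonempty →
          ∀ x a b, Traj R ε x a b → (∀ i, m ≤ x a i) →
          (∀ t ∈ Icc a b, ∀ i, x t i ≤ M') →
          (∀ t ∈ Icc a b, ∀ j, j ∉ I → (∀ i ∈ I, x t i < e) → e ≤ x t j) →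
          ∀ t ∈ Icc a b, ∃ i ∈ I, e' ≤ x t i) := by
        intro I
        by_cases hI : I.Nonempty
        · obtain ⟨e', h2, h3⟩ := lower_step (M' := M') hR hε hm he I hI
          exact ⟨e', h2, fun _ => h3⟩
        · exact ⟨1, one_pos, fun h => absurd h hI⟩
      choose E hE0 hE using h1
      obtain ⟨e', he', hmin⟩ := exists_pos_lb Finset.univ E
      refine ⟨e', he', fun x a b T hx t ht I hI hcard => ?_⟩
      obtain ⟨i, hi, h2⟩ := hE I hI x a b T (fun i => (hx i).1)
        (hM' x a b T (fun i => (hx i).2)) (fun u hu j hj hsmall => by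
          obtain ⟨i, hi, h3⟩ := H x a b T hx u hu (insert j I) (Finset.insert_nonempty _ _)
            (by rw [Finset.card_insert_of_notMem hj]; omega)
          rcases Finset.mem_insert.1 hi with rfl | hi
          · exact h3
          · exact absurd h3 (not_le.2 (hsmall i hi))) t ht
      exact ⟨i, hi, le_trans (hmin I (Finset.mem_univ _) (hE0 I)) h2⟩
  obtain ⟨e, he, H⟩ := main d
  refine ⟨e, M', he, fun x a b T hx t ht i => ⟨?_, hM' x a b T (fun i => (hx i).2) t ht i⟩⟩
  obtain ⟨j, hj, h⟩ := H x a b T hx t ht {i} (Finset.singleton_nonempty i) (by simp)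
  rwa [Finset.mem_singleton.1 hj] at h

lemma dot_eq_zero_of_mem {R : Finset ((Fin d → ℕ) × (Fin d → ℕ))} {w v : Fin d → ℝ}
    (h : ∀ r ∈ R, dot w r.1 = dot w r.2) (hv : v ∈ stoichSubspace R) : ∑ i, v i * w i = 0 := by
  unfold stoichSubspace at hv
  induction hv using Submodule.span_induction with
  | mem v hv =>
    obtain ⟨r, hr, rfl⟩ := hv
    rw [sum_diff_mul, h r hr, sub_self]
  | zero => simp
  | add u v _ _ h1 h2 =>
    simp only [Pi.add_apply, add_mul, Finset.sum_add_distrib, h1, h2, add_zero]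
  | smul a u _ h1 =>
    simp only [Pi.smul_apply, smul_eq_mul, mul_assoc, ← Finset.mul_sum, h1, mul_zero]

theorem absorb {R : Finset ((Fin d → ℕ) × (Fin d → ℕ))} (hR : WeaklyReversible R) {ε : ℝ}
    (hε : 0 < ε) {c : Fin d → ℝ} (hc : ∀ i, 0 < c i) : ∃ m M : ℝ, 0 < m ∧
      ∀ x : ℝ → Fin d → ℝ, (∀ b, 0 ≤ b → Traj R ε x 0 b) →
        (∀ t, 0 ≤ t → x t - c ∈ stoichSubspace R) →
        ∃ t0, 0 ≤ t0 ∧ ∀ i, m ≤ x t0 i ∧ x t0 i ≤ M := by
  classical
  obtain ⟨δ0, hδ0⟩ := dissip hR hε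
  obtain ⟨lc, hlc0, hlc⟩ := exists_ub Finset.univ (fun i => |Real.log (c i)|)
  set δ := max δ0 (lc + 1) with hδ
  obtain ⟨V, C, hC, h1, h2, h3⟩ := keyI Finset.univ (tests R) (δ + 1) 0 le_rfl
  refine ⟨Real.exp (-C), Real.exp C, Real.exp_pos _, fun x T hS => ?_⟩
  by_contra hcon
  push Not at hcon
  have hx0 : ∀ i, 0 < x 0 i := (T 0 le_rfl).2.1 0 ⟨le_rfl, le_rfl⟩
  obtain ⟨m0, hm0, hm0x⟩ := exists_pos_lb Finset.univ (fun i => x 0 i)
  obtain ⟨M0, _, hM0x⟩ := exists_ub Finset.univ (fun i => x 0 i)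
  obtain ⟨m1, M1, hm1, hbox⟩ := apriori hR hε hm0 M0
  obtain ⟨μ, hμ, hμy⟩ := exists_pos_lb R (fun r => mono (fun _ => m1) r.1)
  set κ := ε / 2 * μ with hκ
  have hκ0 : 0 < κ := by positivity
  have hdec : ∀ b, 0 ≤ b → V (x b) + κ * b ≤ V (x 0) + κ * 0 := by
    intro b hb
    have Tb := T b hb
    refine lyap Tb hb (tests R) V κ δ
      (fun w => (∃ i, w i ≠ 0) ∧ ∀ a ∈ tests R, 0 < ∑ i, a i * w i → 1 ≤ ∑ i, a i * w i)
      (fun t ht η hη => ?_) (fun u hu w hw hcomp k hk => ?_)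
    · obtain ⟨w, hw1, hw2, hw3⟩ := h3 (x t) (Tb.2.1 t ht)
        (fun j hj => absurd (Finset.mem_univ j) hj) η hη
      refine ⟨w, hw1, ⟨?_, fun a ha hp => (hw3 a ha hp).1⟩, fun a ha hp => (hw3 a ha hp).2⟩
      obtain ⟨i, hi⟩ := hcon t ht.1
      refine ⟨i, fun h0 => ?_⟩
      have h4 := hw2 i (Finset.mem_univ i)
      rw [h0, zero_sub, abs_neg, abs_le] at h4
      have hp := Tb.2.1 t ht i
      have h5 : Real.exp (-C) ≤ x t i := by rw [← Real.le_log_iff_exp_le hp]; exact h4.1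
      have h6 : x t i ≤ Real.exp C := by rw [← Real.log_le_iff_le_exp hp]; exact h4.2
      linarith [hi h5]
    · have hxu := Tb.2.1 u hu
      have h4 := hδ0 (x u) w k hxu hk (compat_of_tests hxu
        (fun a ha hp => le_trans (le_max_left _ _) (hcomp a ha hp)))
      have h5 : ∃ r ∈ R, dot w r.1 ≠ dot w r.2 := by
        by_contra h6
        push Not at h6
        have h7 := dot_eq_zero_of_mem h6 (hS u hu.1)
        have hsign : ∀ i, w i ≠ 0 → 0 < (x u - c) i * w i := by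
          intro i hi
          have hlci := hlc i (Finset.mem_univ i)
          rw [abs_le] at hlci
          have hδ1 : lc + 1 ≤ δ := le_max_right _ _
          rcases lt_or_gt_of_ne hi with h8 | h8
          · have h9 := hcomp _ (neg_single_mem_tests R i)
              (by rw [Finset.sum_eq_single i] <;> simp +contextual [h8])
            rw [Finset.sum_eq_single i (by simp +contextual) (by simp)] at h9
            simp only [Pi.single_eq_same] at h9
            have h10 : x u i < c i := by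
              rw [← Real.log_lt_log_iff (hxu i) (hc i)]; linarith
            exact mul_pos_of_neg_of_neg (by simp only [Pi.sub_apply]; linarith) h8
          · have h9 := hcomp _ (single_mem_tests R i)
              (by rw [Finset.sum_eq_single i] <;> simp +contextual [h8])
            rw [Finset.sum_eq_single i (by simp +contextual) (by simp)] at h9
            simp only [Pi.single_eq_same] at h9
            have h10 : c i < x u i := by
              rw [← Real.log_lt_log_iff (hc i) (hxu i)]; linarith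
            exact mul_pos (by simp only [Pi.sub_apply]; linarith) h8
        obtain ⟨i, hi⟩ := hw.1
        have h11 : 0 < ∑ j, (x u - c) j * w j :=
          Finset.sum_pos' (fun j _ => by
            by_cases hj : w j = 0
            · rw [hj, mul_zero]
            · exact (hsign j hj).le) ⟨i, Finset.mem_univ i, hsign i hi⟩
        linarith
      obtain ⟨r, hr, hlt⟩ := exists_down_edge hR h5
      have h6 := hw.2 _ (diff_mem_tests (snd_mem_cxs hr) (fst_mem_cxs hr))
        (by rw [sum_diff_mul]; linarith)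
      rw [sum_diff_mul] at h6
      have h7 := down_term_le hxu w hr
      rw [max_eq_left (by linarith)] at h7
      have h8 : μ ≤ mono (x u) r.1 := by
        refine le_trans (hμy r hr (mono_pos (fun _ => hm1) _)) ?_
        unfold mono
        refine Finset.prod_le_prod (fun j _ => by positivity) (fun j _ => ?_)
        exact pow_le_pow_left₀ hm1.le (hbox x 0 b Tb
          (fun i => ⟨hm0x i (Finset.mem_univ i) (hx0 i), hM0x i (Finset.mem_univ i)⟩) u hu j).1 _
      have h9 : μ ≤ down R (x u) w := by nlinarith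
      rw [hκ]; nlinarith
  set b := (|V (x 0)| + d * Real.exp C + 1) / κ with hb
  have hb0 : 0 ≤ b := by positivity
  have h4 := hdec b hb0
  have h5 := h2 _ ((T b hb0).2.1 b ⟨hb0, le_rfl⟩)
  have h6 : ∑ i : Fin d, -Real.exp C ≤ ∑ i, (x b i * Real.log (x b i) - C * x b i) :=
    Finset.sum_le_sum (fun i _ => xlogx_lower ((T b hb0).2.1 b ⟨hb0, le_rfl⟩ i))
  simp only [Finset.sum_const, Finset.card_univ, Fintype.card_fin, nsmul_eq_mul] at h6
  have h7 : κ * b = |V (x 0)| + d * Real.exp C + 1 := by rw [hb]; field_simp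
  linarith [le_abs_self (V (x 0))]

end Vale.Agent.P072
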