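import Mathlib

/-! Sorted slope chains with binary-search scales. -/

namespace Vale.Agent.P072

open Finset Real

/-- Data for the construction of admissible slope chains. -/
structure Sys where
  n : ℕ
  L : ℕ → Set ((ℕ → ℝ) → ℝ)
  β : ℝ
  K : ℝ
  T0 : ℝ
  β_pos : 0 < β
  β_le : β ≤ 1
  dep : ∀ j, ∀ l ∈ L j, ∀ t t' : ℕ → ℝ, (∀ i < j, t i = t' i) → l t = l t'
  tie : ∀ j, j + 1 < n → (fun t : ℕ → ℝ => t j) ∈ L (j + 1)
  elim : ∀ j < n, ∀ l ∈ L j, ∀ l' ∈ L j, (∀ t, l t = l' t) ∨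
    ∃ i < j, ∃ l'' ∈ L i, ∃ c : ℝ, β ≤ |c| ∧ ∀ t, l t - l' t = c * (t i - l'' t)
  hK : 2 ≤ β ^ n * K
  hT0 : 1 ≤ T0
  hexp : (4 * (n : ℝ) ^ 2 + 8 * n + 6) * (T0 * K ^ (2 ^ (n + 1))) ≤ Real.exp T0

namespace Sys

variable (S : Sys)

/-- level `j` of `t` is special -/
def sp (t : ℕ → ℝ) (j : ℕ) : Prop := ∃ l ∈ S.L j, t j = l t

open Classical in
/-- the lower index after `j` levels -/
noncomputable def p (t : ℕ → ℝ) (j : ℕ) : ℕ :=
  ∑ i ∈ range j, if S.sp t i then 2 ^ (S.n - i) else 0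

/-- scale at level `j` -/
noncomputable def G (t : ℕ → ℝ) (j : ℕ) : ℝ := S.T0 * S.K ^ (S.p t j + 2 ^ (S.n - j))

/-- level `j` is generic -/
def gen (t : ℕ → ℝ) (j : ℕ) : Prop := ∀ l ∈ S.L j, S.G t j ≤ |t j - l t|

/-- the first `k` levels are admissible -/
def Adm (t : ℕ → ℝ) (k : ℕ) : Prop :=
  ∀ j < k, (S.sp t j ∨ S.gen t j) ∧ ∀ i, j = i + 1 → t j ≤ t i

open Classical in
/-- discount -/
noncomputable def γ (t : ℕ → ℝ) (j : ℕ) : ℝ := if S.sp t j then S.G t j else 0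

/-- final lower scale -/
noncomputable def Lo (t : ℕ → ℝ) : ℝ := S.T0 * S.K ^ (S.p t S.n)

/-- maximal scale -/
noncomputable def T : ℝ := S.T0 * S.K ^ (2 ^ (S.n + 1))

variable {S}

lemma K_ge : 2 ≤ S.K := by
  have h1 : S.β ^ S.n ≤ 1 := pow_le_one₀ S.β_pos.le S.β_le
  have h2 : 0 < S.β ^ S.n := pow_pos S.β_pos _
  have h3 := S.hK
  by_contra h
  push Not at h
  nlinarith

lemma one_le_K : 1 ≤ S.K := by have := @K_ge S; linarith

lemma scale_mono {a b : ℕ} (h : a ≤ b) : S.T0 * S.K ^ a ≤ S.T0 * S.K ^ b :=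
  mul_le_mul_of_nonneg_left (pow_le_pow_right₀ one_le_K h) (by have := S.hT0; linarith)

lemma T0_le_scale (a : ℕ) : S.T0 ≤ S.T0 * S.K ^ a := by
  have := scale_mono (S := S) (Nat.zero_le a)
  simpa using this

lemma sp_congr {t t' : ℕ → ℝ} {j : ℕ} (h : ∀ i ≤ j, t i = t' i) : S.sp t j ↔ S.sp t' j := by
  have key : ∀ l ∈ S.L j, l t = l t' := fun l hl => S.dep j l hl t t' (fun i hi => h i hi.le)
  constructor
  · rintro ⟨l, hl, e⟩
    exact ⟨l, hl, by rw [← h j le_rfl, e, key l hl]⟩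
  · rintro ⟨l, hl, e⟩
    exact ⟨l, hl, by rw [h j le_rfl, e, key l hl]⟩

lemma p_congr {t t' : ℕ → ℝ} {j : ℕ} (h : ∀ i < j, t i = t' i) : S.p t j = S.p t' j := by
  unfold p
  refine Finset.sum_congr rfl (fun i hi => ?_)
  have hi' := Finset.mem_range.1 hi
  have : S.sp t i ↔ S.sp t' i := sp_congr (fun a ha => h a (lt_of_le_of_lt ha hi'))
  by_cases hs : S.sp t i
  · rw [if_pos hs, if_pos (this.1 hs)]
  · rw [if_neg hs, if_neg (fun a => hs (this.2 a))]

lemma G_congr {t t' : ℕ → ℝ} {j : ℕ} (h : ∀ i < j, t i = t' i) : S.G t j = S.G t' j := by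
  unfold G; rw [p_congr h]

lemma gen_congr {t t' : ℕ → ℝ} {j : ℕ} (h : ∀ i ≤ j, t i = t' i) : S.gen t j ↔ S.gen t' j := by
  have key : ∀ l ∈ S.L j, l t = l t' := fun l hl => S.dep j l hl t t' (fun i hi => h i hi.le)
  have hG : S.G t j = S.G t' j := G_congr (fun i hi => h i hi.le)
  unfold gen
  constructor
  · intro H l hl
    rw [← hG, ← h j le_rfl, ← key l hl]; exact H l hl
  · intro H l hl
    rw [hG, h j le_rfl, key l hl]; exact H l hl

lemma γ_congr {t t' : ℕ → ℝ} {j : ℕ} (h : ∀ i ≤ j, t i = t' i) : S.γ t j = S.γ t' j := by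
  unfold γ
  have h1 : S.sp t j ↔ S.sp t' j := sp_congr h
  have hG : S.G t j = S.G t' j := G_congr (fun i hi => h i hi.le)
  by_cases hs : S.sp t j
  · rw [if_pos hs, if_pos (h1.1 hs), hG]
  · rw [if_neg hs, if_neg (fun a => hs (h1.2 a))]

lemma Adm_congr {t t' : ℕ → ℝ} {k : ℕ} (h : ∀ i < k, t i = t' i) (H : S.Adm t k) :
    S.Adm t' k := by
  intro j hj
  have h1 : ∀ i ≤ j, t i = t' i := fun i hi => h i (lt_of_le_of_lt hi hj)
  refine ⟨?_, fun i hi => ?_⟩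
  · rcases (H j hj).1 with a | a
    · exact Or.inl ((sp_congr h1).1 a)
    · exact Or.inr ((gen_congr h1).1 a)
  · rw [← h1 j le_rfl, ← h1 i (by omega)]
    exact (H j hj).2 i hi

lemma Adm.mono {t : ℕ → ℝ} {k k' : ℕ} (H : S.Adm t k) (h : k' ≤ k) : S.Adm t k' :=
  fun j hj => H j (lt_of_lt_of_le hj h)

lemma Adm.anti {t : ℕ → ℝ} {k : ℕ} (H : S.Adm t k) {i j : ℕ} (hij : i ≤ j) (hj : j < k) :
    t j ≤ t i := by
  induction j with
  | zero => have : i = 0 := by omega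
            rw [this]
  | succ m ih =>
    rcases Nat.eq_or_lt_of_le hij with e | e
    · rw [e]
    · exact le_trans ((H (m + 1) hj).2 m rfl) (ih (by omega) (by omega))

open Classical in
lemma p_succ (t : ℕ → ℝ) (j : ℕ) :
    S.p t (j + 1) = S.p t j + if S.sp t j then 2 ^ (S.n - j) else 0 := by
  unfold p; rw [Finset.sum_range_succ]

lemma p_mono (t : ℕ → ℝ) {i j : ℕ} (h : i ≤ j) : S.p t i ≤ S.p t j := by
  unfold p
  exact Finset.sum_le_sum_of_subset (Finset.range_mono h)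

lemma hi_step (t : ℕ → ℝ) {j : ℕ} (hj : j < S.n) :
    S.p t (j + 1) + 2 * 2 ^ (S.n - (j + 1)) ≤ S.p t j + 2 * 2 ^ (S.n - j) := by
  have e : 2 ^ (S.n - j) = 2 * 2 ^ (S.n - (j + 1)) := by
    have : S.n - j = (S.n - (j + 1)) + 1 := by omega
    rw [this, pow_succ]; ring
  rw [p_succ]
  split_ifs <;> omega

lemma hi_anti (t : ℕ → ℝ) {i j : ℕ} (h : i ≤ j) (hj : j ≤ S.n) :
    S.p t j + 2 * 2 ^ (S.n - j) ≤ S.p t i + 2 * 2 ^ (S.n - i) := by
  induction j with
  | zero => have : i = 0 := by omega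
            rw [this]
  | succ m ih =>
    rcases Nat.eq_or_lt_of_le h with e | e
    · rw [e]
    · exact le_trans (hi_step t (by omega)) (ih (by omega) (by omega))

lemma hi_gen (t : ℕ → ℝ) {j : ℕ} (hj : j < S.n) (h : ¬ S.sp t j) :
    S.p t (j + 1) + 2 * 2 ^ (S.n - (j + 1)) = S.p t j + 2 ^ (S.n - j) := by
  have e : 2 ^ (S.n - j) = 2 * 2 ^ (S.n - (j + 1)) := by
    have : S.n - j = (S.n - (j + 1)) + 1 := by omega
    rw [this, pow_succ]; ring
  rw [p_succ, if_neg h]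
  omega

lemma G_ge_T0 (t : ℕ → ℝ) (j : ℕ) : S.T0 ≤ S.G t j := T0_le_scale _

lemma one_le_G (t : ℕ → ℝ) (j : ℕ) : 1 ≤ S.G t j := le_trans S.hT0 (G_ge_T0 t j)

lemma Lo_ge_T0 (t : ℕ → ℝ) : S.T0 ≤ S.Lo t := T0_le_scale _

lemma G_le_T (t : ℕ → ℝ) {j : ℕ} (hj : j ≤ S.n) : S.G t j ≤ S.T := by
  apply scale_mono
  have h := hi_anti t (Nat.zero_le j) hj
  have h0 : S.p t 0 = 0 := by simp [p]
  rw [h0] at h
  simp only [Nat.sub_zero, zero_add] at h
  rw [pow_succ]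
  have : 0 < 2 ^ (S.n - j) := by positivity
  omega

lemma Lo_le_T (t : ℕ → ℝ) : S.Lo t ≤ S.T := by
  apply scale_mono
  have h := hi_anti t (Nat.zero_le S.n) le_rfl
  have h0 : S.p t 0 = 0 := by simp [p]
  rw [h0] at h
  simp only [Nat.sub_zero, zero_add] at h
  rw [pow_succ]
  omega

lemma one_le_T : 1 ≤ S.T := le_trans S.hT0 (T0_le_scale _)

lemma G_le_Lo {t : ℕ → ℝ} {j : ℕ} (hj : j < S.n) (h : S.sp t j) : S.G t j ≤ S.Lo t := by
  apply scale_mono
  have h1 := p_succ (S := S) t j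
  rw [if_pos h] at h1
  have h2 := p_mono (S := S) t (show j + 1 ≤ S.n by omega)
  omega

lemma KLo_le_G {t : ℕ → ℝ} {j : ℕ} (hj : j < S.n) (h : ¬ S.sp t j) :
    S.K * S.Lo t ≤ S.G t j := by
  have e : S.K * S.Lo t = S.T0 * S.K ^ (S.p t S.n + 1) := by
    unfold Lo; rw [pow_succ]; ring
  rw [e]
  apply scale_mono
  have h1 := hi_gen t hj h
  have h2 := hi_anti t (show j + 1 ≤ S.n by omega) le_rfl
  simp only [Nat.sub_self, pow_zero] at h2
  omega

lemma KG_le_G {t : ℕ → ℝ} {i j : ℕ} (hij : i < j) (hj : j < S.n) (h : ¬ S.sp t i) :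
    S.K * S.G t j ≤ S.G t i := by
  have e : S.K * S.G t j = S.T0 * S.K ^ (S.p t j + 2 ^ (S.n - j) + 1) := by
    unfold G; rw [pow_succ]; ring
  rw [e]
  apply scale_mono
  have h1 := hi_gen t (show i < S.n by omega) h
  have h2 := hi_anti t (show i + 1 ≤ j by omega) hj.le
  have : 0 < 2 ^ (S.n - j) := by positivity
  omega

lemma G_le_G_of_sp {t : ℕ → ℝ} {i j : ℕ} (hij : i ≤ j) (h : S.sp t i) :
    S.G t i ≤ S.G t j := by
  rcases Nat.eq_or_lt_of_le hij with e | e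
  · rw [e]
  apply scale_mono
  have h1 := p_succ (S := S) t i
  rw [if_pos h] at h1
  have h2 := p_mono (S := S) t (show i + 1 ≤ j by omega)
  have : 0 < 2 ^ (S.n - j) := by positivity
  omega

lemma γ_nonneg (t : ℕ → ℝ) (j : ℕ) : 0 ≤ S.γ t j := by
  unfold γ; split_ifs
  · have := one_le_G (S := S) t j; linarith
  · exact le_rfl

lemma γ_le_Lo (t : ℕ → ℝ) {j : ℕ} (hj : j < S.n) : S.γ t j ≤ S.Lo t := by
  unfold γ; split_ifs with h
  · exact G_le_Lo hj h
  · have := Lo_ge_T0 (S := S) t; have := S.hT0; linarith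

lemma γ_le_T (t : ℕ → ℝ) {j : ℕ} (hj : j < S.n) : S.γ t j ≤ S.T :=
  le_trans (γ_le_Lo t hj) (Lo_le_T t)

/-- Separation of the special positions. -/
lemma sep_aux {t : ℕ → ℝ} {k : ℕ} (H : S.Adm t k) {M : ℝ} (hM : 0 ≤ M)
    (hgen : ∀ i < k, ¬ S.sp t i → M ≤ S.G t i) :
    ∀ j, j ≤ k → j < S.n → ∀ l ∈ S.L j, ∀ l' ∈ S.L j,
      l t = l' t ∨ S.β ^ j * M ≤ |l t - l' t| := by
  intro j
  induction j using Nat.strong_induction_on with
  | _ j ih =>
    intro hjk hjn l hl l' hl'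
    rcases S.elim j hjn l hl l' hl' with h | ⟨i, hij, l'', hl'', c, hc, h⟩
    · exact Or.inl (h t)
    · have hβi : S.β ^ j ≤ S.β * S.β ^ i := by
        rw [← pow_succ']
        exact pow_le_pow_of_le_one S.β_pos.le S.β_le (by omega)
      have hb0 : 0 < S.β ^ i := pow_pos S.β_pos _
      have key : t i = l'' t ∨ S.β ^ i * M ≤ |t i - l'' t| := by
        by_cases hs : S.sp t i
        · obtain ⟨l3, hl3, e⟩ := hs
          rw [e]
          exact ih i hij (by omega) (by omega) l3 hl3 l'' hl''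
        · right
          have hg : S.gen t i := ((H i (by omega)).1).resolve_left hs
          have h1 := hg l'' hl''
          have h2 := hgen i (by omega) hs
          have h3 : S.β ^ i ≤ 1 := pow_le_one₀ S.β_pos.le S.β_le
          nlinarith
      rcases key with e | e
      · left
        have := h t
        rw [e, sub_self, mul_zero] at this
        linarith
      · right
        rw [h t, abs_mul]
        have h4 : 0 ≤ S.β ^ i * M := by positivity
        calc S.β ^ j * M ≤ S.β * S.β ^ i * M := mul_le_mul_of_nonneg_right hβi hM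
          _ = S.β * (S.β ^ i * M) := by ring
          _ ≤ |c| * |t i - l'' t| := mul_le_mul hc e h4 (abs_nonneg _)

/-- special positions at the next level are `2 G` apart -/
lemma sep_level {t : ℕ → ℝ} {j : ℕ} (H : S.Adm t j) (hj : j < S.n) :
    ∀ l ∈ S.L j, ∀ l' ∈ S.L j, l t = l' t ∨ 2 * S.G t j ≤ |l t - l' t| := by
  intro l hl l' hl'
  have hG := one_le_G (S := S) t j
  have hK := @K_ge S
  have h := sep_aux H (M := S.K * S.G t j) (by positivity)
    (fun i hi hs => KG_le_G hi hj hs) j le_rfl hj l hl l' hl'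
  rcases h with h | h
  · exact Or.inl h
  · right
    have h1 : S.β ^ S.n ≤ S.β ^ j := pow_le_pow_of_le_one S.β_pos.le S.β_le hj.le
    have h2 := S.hK
    have h3 : 2 ≤ S.β ^ j * S.K := by nlinarith
    nlinarith

/-- final gap property -/
lemma sep_final {t : ℕ → ℝ} (H : S.Adm t S.n) {i : ℕ} (hi : i < S.n) :
    ∀ l ∈ S.L i, t i = l t ∨ S.β ^ S.n * (S.K * S.Lo t) ≤ |t i - l t| := by
  intro l hl
  have hK := @K_ge S
  have hLo : 1 ≤ S.Lo t := le_trans S.hT0 (Lo_ge_T0 t)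
  have hM : 0 ≤ S.K * S.Lo t := by positivity
  have h1 : S.β ^ S.n ≤ S.β ^ i := pow_le_pow_of_le_one S.β_pos.le S.β_le hi.le
  by_cases hs : S.sp t i
  · obtain ⟨l3, hl3, e⟩ := hs
    rw [e]
    rcases sep_aux H hM (fun a ha hs => KLo_le_G ha hs) i hi.le hi l3 hl3 l hl with h | h
    · exact Or.inl h
    · right; nlinarith
  · right
    have hg : S.gen t i := ((H i hi).1).resolve_left hs
    have h2 := hg l hl
    have h3 := KLo_le_G hi hs
    have h4 : S.β ^ S.n ≤ 1 := pow_le_one₀ S.β_pos.le S.β_le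
    nlinarith

end Sys

end Vale.Agent.P072
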