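import Mathlib

/-! Mass-action systems: definitions used in the statements. -/

namespace Vale.Agent.P072

open Set Filter MeasureTheory

/-- A finite set `R` of reactions `y → y'` (pairs of complexes) is weakly reversible if for every
reaction `y → y'` there is a directed path of reactions from `y'` to `y`. -/
def WeaklyReversible {d : ℕ} (R : Finset ((Fin d → ℕ) × (Fin d → ℕ))) : Prop :=
  ∀ r ∈ R, Relation.ReflTransGen (fun y y' => (y, y') ∈ R) r.2 r.1

/-- The mass-action vector field `∑ k(y → y') x^y (y' - y)`. -/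
noncomputable def massAction {d : ℕ} (R : Finset ((Fin d → ℕ) × (Fin d → ℕ)))
    (k : (Fin d → ℕ) × (Fin d → ℕ) → ℝ) (x : Fin d → ℝ) : Fin d → ℝ :=
  fun i => ∑ r ∈ R, k r * (∏ j, x j ^ r.1 j) * ((r.2 i : ℝ) - (r.1 i : ℝ))

/-- The stoichiometric subspace, spanned by the reaction vectors `y' - y`. -/
def stoichSubspace {d : ℕ} (R : Finset ((Fin d → ℕ) × (Fin d → ℕ))) :
    Submodule ℝ (Fin d → ℝ) :=
  Submodule.span ℝ {v | ∃ r ∈ R, v = fun i => (r.2 i : ℝ) - (r.1 i : ℝ)}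

/-- The positive stoichiometric class `(c + S) ∩ ℝ^d_{>0}`. -/
def posClass {d : ℕ} (R : Finset ((Fin d → ℕ) × (Fin d → ℕ))) (c : Fin d → ℝ) :
    Set (Fin d → ℝ) :=
  {x | x - c ∈ stoichSubspace R ∧ ∀ i, 0 < x i}

/-- `x` is a classical solution of `x' = f x` on the time set `I`. -/
def IsSolution {d : ℕ} (f : (Fin d → ℝ) → (Fin d → ℝ)) (x : ℝ → Fin d → ℝ) (I : Set ℝ) : Prop :=
  ∀ t ∈ I, HasDerivWithinAt x (f (x t)) I t

/-- `x` is a (Caratheodory) solution of `x' = F t x` on the time set `I`, an interval with left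
end point `0`: it is continuous and satisfies the integral equation. -/
def IsIntegralSolution {d : ℕ} (F : ℝ → (Fin d → ℝ) → (Fin d → ℝ)) (x : ℝ → Fin d → ℝ)
    (I : Set ℝ) : Prop :=
  ContinuousOn x I ∧ ∀ t ∈ I, IntervalIntegrable (fun s => F s (x s)) volume 0 t ∧
    x t = x 0 + ∫ s in (0 : ℝ)..t, F s (x s)

/-- Permanence on `P` with absorbing set `K`, for the solution concept `Sol`:
every point of `P` is the initial value of a solution on `[0, ∞)`; every solution on `[0, T)`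
starting in `P` extends to a solution on `[0, ∞)`; every solution on `[0, ∞)` starting in `P`
stays in `P` for all `t ≥ 0` and lies in `K` for all large `t`. -/
def PermanentWith {d : ℕ} (Sol : (ℝ → Fin d → ℝ) → Set ℝ → Prop) (P K : Set (Fin d → ℝ)) : Prop :=
  (∀ x₀ ∈ P, ∃ x, x 0 = x₀ ∧ Sol x (Ici 0)) ∧
  (∀ T, 0 < T → ∀ x, x 0 ∈ P → Sol x (Ico 0 T) → ∃ z, Sol z (Ici 0) ∧ EqOn z x (Ico 0 T)) ∧
  (∀ x, x 0 ∈ P → Sol x (Ici 0) → (∀ t, 0 ≤ t → x t ∈ P) ∧ ∀ᶠ t in atTop, x t ∈ K)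

end Vale.Agent.P072
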