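import Vale.Agent.P072.Moves

/-! The convex Lyapunov function with order-compatible approximate subgradients. -/

namespace Vale.Agent.P072

open Finset Real

lemma exists_pos_lb {α : Type*} (s : Finset α) (g : α → ℝ) :
    ∃ e : ℝ, 0 < e ∧ ∀ a ∈ s, 0 < g a → e ≤ g a := by
  classical
  induction s using Finset.induction_on with
  | empty => exact ⟨1, one_pos, by simp⟩
  | insert a s _ ih =>
    obtain ⟨e, he, h⟩ := ih
    by_cases ha : 0 < g a
    · refine ⟨min e (g a), lt_min he ha, fun b hb hg => ?_⟩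
      rcases Finset.mem_insert.1 hb with rfl | hb
      · exact min_le_right _ _
      · exact le_trans (min_le_left _ _) (h b hb hg)
    · refine ⟨e, he, fun b hb hg => ?_⟩
      rcases Finset.mem_insert.1 hb with rfl | hb
      · exact absurd hg ha
      · exact h b hb hg

lemma exists_ub {α : Type*} (s : Finset α) (g : α → ℝ) :
    ∃ M : ℝ, 0 ≤ M ∧ ∀ a ∈ s, g a ≤ M := by
  refine ⟨∑ a ∈ s, |g a|, Finset.sum_nonneg (fun _ _ => abs_nonneg _), fun a ha => ?_⟩
  exact le_trans (le_abs_self _)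
    (Finset.single_le_sum (f := fun a => |g a|) (fun _ _ => abs_nonneg _) ha)

lemma exists_L (n : ℕ) (B : Finset (ℕ → ℝ)) :
    ∃ (L : ℕ → Set ((ℕ → ℝ) → ℝ)) (β : ℝ), 0 < β ∧ β ≤ 1 ∧
      (∀ j, ∀ l ∈ L j, ∀ t t' : ℕ → ℝ, (∀ i < j, t i = t' i) → l t = l t') ∧
      (∀ j, j + 1 < n → (fun t : ℕ → ℝ => t j) ∈ L (j + 1)) ∧
      (∀ j < n, ∀ l ∈ L j, ∀ l' ∈ L j, (∀ t, l t = l' t) ∨
        ∃ i < j, ∃ l'' ∈ L i, ∃ c : ℝ, β ≤ |c| ∧ ∀ t, l t - l' t = c * (t i - l'' t)) ∧
      (∀ b ∈ B, (∀ t : ℕ → ℝ, ∑ i ∈ range n, b i * t i = 0) ∨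
        ∃ i < n, ∃ l ∈ L i, ∃ c : ℝ, β ≤ |c| ∧
          ∀ t : ℕ → ℝ, ∑ i ∈ range n, b i * t i = c * (t i - l t)) := by
  classical
  induction n generalizing B with
  | zero =>
    refine ⟨fun _ => ∅, 1, one_pos, le_rfl, by simp, by simp, by simp, fun b _ => Or.inl ?_⟩
    simp
  | succ n ih =>
    set Cn : Finset (ℕ → ℝ) :=
      insert (Pi.single (n - 1) 1) (B.image (fun b => fun i => -b i / b n)) with hCn
    set B' : Finset (ℕ → ℝ) := B ∪ Finset.image₂ (fun c c' => c - c') Cn Cn with hB'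
    obtain ⟨L', β', hβ1, hβ2, hdep, htie, helim, hB⟩ := ih B'
    obtain ⟨e, he, hmin⟩ := exists_pos_lb B (fun b => |b n|)
    set Ln : Set ((ℕ → ℝ) → ℝ) :=
      {l | ∃ c ∈ Cn, l = fun t => ∑ i ∈ range n, c i * t i} with hLn
    have hup : ∀ i < n, Function.update L' n Ln i = L' i :=
      fun i hi => Function.update_of_ne hi.ne _ _
    refine ⟨Function.update L' n Ln, min β' e, lt_min hβ1 he, le_trans (min_le_left _ _) hβ2,
      ?_, ?_, ?_, ?_⟩
    · intro j l hl t t' h
      by_cases hj : j = n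
      · subst hj
        rw [Function.update_self] at hl
        obtain ⟨c, _, rfl⟩ := hl
        exact Finset.sum_congr rfl (fun i hi => by rw [h i (Finset.mem_range.1 hi)])
      · rw [Function.update_of_ne hj] at hl
        exact hdep j l hl t t' h
    · intro j hj
      rcases Nat.lt_or_ge (j + 1) n with h | h
      · rw [hup _ h]; exact htie j h
      · have e : n = j + 1 := by omega
        subst e
        rw [Function.update_self]
        refine ⟨Pi.single j 1, Finset.mem_insert_self _ _, ?_⟩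
        funext t
        rw [Finset.sum_eq_single j]
        · simp
        · intro b _ hb; simp [hb]
        · intro h; exact absurd (Finset.mem_range.2 (by omega)) h
    · intro j hj l hl l' hl'
      rcases Nat.lt_or_ge j n with h | h
      · rw [hup _ h] at hl hl'
        rcases helim j h l hl l' hl' with h1 | ⟨i, hi, l'', hl'', c, hc, h1⟩
        · exact Or.inl h1
        · exact Or.inr ⟨i, hi, l'', by rw [hup _ (by omega)]; exact hl'', c,
            le_trans (min_le_left _ _) hc, h1⟩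
      · have e : j = n := by omega
        subst e
        rw [Function.update_self] at hl hl'
        obtain ⟨c, hc, rfl⟩ := hl
        obtain ⟨c', hc', rfl⟩ := hl'
        have hmem : c - c' ∈ B' :=
          Finset.mem_union_right _ (Finset.mem_image₂_of_mem hc hc')
        have hsub : ∀ t : ℕ → ℝ, ∑ i ∈ range j, c i * t i - ∑ i ∈ range j, c' i * t i
            = ∑ i ∈ range j, (c - c') i * t i := by
          intro t
          rw [← Finset.sum_sub_distrib]
          exact Finset.sum_congr rfl (fun i _ => by simp only [Pi.sub_apply]; ring)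
        rcases hB _ hmem with h1 | ⟨i, hi, l'', hl'', c2, hc2, h1⟩
        · left; intro t
          have := hsub t
          rw [h1 t] at this
          show ∑ i ∈ range j, c i * t i = ∑ i ∈ range j, c' i * t i
          linarith
        · right
          refine ⟨i, hi, l'', by rw [hup _ hi]; exact hl'', c2,
            le_trans (min_le_left _ _) hc2, fun t => ?_⟩
          show ∑ i ∈ range j, c i * t i - ∑ i ∈ range j, c' i * t i = _
          rw [hsub t, h1 t]
    · intro b hb
      by_cases hbn : b n = 0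
      · have hs : ∀ t : ℕ → ℝ, ∑ i ∈ range (n + 1), b i * t i = ∑ i ∈ range n, b i * t i := by
          intro t; rw [Finset.sum_range_succ, hbn]; ring
        rcases hB b (Finset.mem_union_left _ hb) with h1 | ⟨i, hi, l, hl, c, hc, h1⟩
        · left; intro t; rw [hs, h1]
        · right
          exact ⟨i, by omega, l, by rw [hup _ hi]; exact hl, c,
            le_trans (min_le_left _ _) hc, fun t => by rw [hs, h1]⟩
      · right
        refine ⟨n, by omega, fun t => ∑ i ∈ range n, (-b i / b n) * t i, ?_, b n,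
          le_trans (min_le_right _ _) (hmin b hb (abs_pos.2 hbn)), fun t => ?_⟩
        · rw [Function.update_self]
          exact ⟨fun i => -b i / b n,
            Finset.mem_insert_of_mem (Finset.mem_image_of_mem _ hb), rfl⟩
        · rw [Finset.sum_range_succ, mul_sub, Finset.mul_sum]
          have : ∑ i ∈ range n, b n * (-b i / b n * t i) = -∑ i ∈ range n, b i * t i := by
            rw [← Finset.sum_neg_distrib]
            exact Finset.sum_congr rfl (fun i _ => by field_simp)
          rw [this]; ring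

/-- existence of a system with the needed constants -/
lemma exists_sys (n : ℕ) (B : Finset (ℕ → ℝ)) (α δ : ℝ) (hα : 0 ≤ α) :
    ∃ S : Sys, S.n = n ∧ δ ≤ S.T0 ∧ ∀ t, S.Adm t n → ∀ b ∈ B,
      ∑ i ∈ range n, b i * t i = 0 ∨ (2 * α + 1) * S.Lo t ≤ |∑ i ∈ range n, b i * t i| := by
  obtain ⟨L, β, hβ1, hβ2, hdep, htie, helim, hB⟩ := exists_L n B
  set K : ℝ := (2 * α + 2) / β ^ (n + 1) with hK
  have hβn : 0 < β ^ n := pow_pos hβ1 _
  have hKe : β * (β ^ n * K) = 2 * α + 2 := by rw [hK]; field_simp; ring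
  have hKpos : 0 < K := by rw [hK]; positivity
  have hK2 : 2 ≤ β ^ n * K := by
    have : 0 < β ^ n * K := by positivity
    nlinarith
  set c : ℝ := (4 * (n : ℝ) ^ 2 + 8 * n + 6) * K ^ (2 ^ (n + 1)) with hc
  have hc0 : 0 ≤ c := by positivity
  set T0 : ℝ := max (max 1 δ) (2 * c) with hT0
  have h1 : 1 ≤ T0 := le_trans (le_max_left _ _) (le_max_left _ _)
  have h2 : δ ≤ T0 := le_trans (le_max_right _ _) (le_max_left _ _)
  have h3 : 2 * c ≤ T0 := le_max_right _ _
  have hexp : (4 * (n : ℝ) ^ 2 + 8 * n + 6) * (T0 * K ^ (2 ^ (n + 1))) ≤ Real.exp T0 := by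
    have h4 := Real.quadratic_le_exp_of_nonneg (show 0 ≤ T0 by linarith)
    have h5 : (4 * (n : ℝ) ^ 2 + 8 * n + 6) * (T0 * K ^ (2 ^ (n + 1))) = c * T0 := by
      rw [hc]; ring
    rw [h5]; nlinarith
  refine ⟨⟨n, L, β, K, T0, hβ1, hβ2, hdep, htie, helim, hK2, h1, hexp⟩, rfl, h2, ?_⟩
  intro t H b hb
  set S : Sys := ⟨n, L, β, K, T0, hβ1, hβ2, hdep, htie, helim, hK2, h1, hexp⟩ with hS
  rcases hB b hb with h | ⟨i, hi, l, hl, c', hc', h⟩
  · exact Or.inl (h t)
  · rcases Sys.sep_final (S := S) H hi l hl with h4 | h4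
    · left; rw [h t, h4]; ring
    · right
      have hLo : 1 ≤ S.Lo t := le_trans S.hT0 (Sys.Lo_ge_T0 t)
      rw [h t, abs_mul]
      have h5 : S.β ^ S.n * (S.K * S.Lo t) = β ^ n * K * S.Lo t := by
        show β ^ n * (K * S.Lo t) = _
        ring
      rw [h5] at h4
      calc (2 * α + 1) * S.Lo t ≤ (2 * α + 2) * S.Lo t := by nlinarith
        _ = β * (β ^ n * K * S.Lo t) := by rw [← hKe]; ring
        _ ≤ |c'| * |t i - l t| := mul_le_mul hc' h4 (by positivity) (abs_nonneg _)

section ext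

variable {ι : Type*} {n : ℕ}

/-- a vector listed along an enumeration -/
noncomputable def ext (e : Fin n ≃ ι) (x : ι → ℝ) (j : ℕ) : ℝ :=
  if h : j < n then x (e ⟨j, h⟩) else 0

lemma ext_lt (e : Fin n ≃ ι) (x : ι → ℝ) {j : ℕ} (h : j < n) : ext e x j = x (e ⟨j, h⟩) :=
  dif_pos h

lemma ext_symm (e : Fin n ≃ ι) (x : ι → ℝ) (i : ι) : ext e x (e.symm i) = x i := by
  rw [ext_lt e x (e.symm i).2]; simp

lemma sum_ext [Fintype ι] (e : Fin n ≃ ι) (x : ι → ℝ) (F : ℕ → ℝ → ℝ) :
    ∑ j ∈ range n, F j (ext e x j) = ∑ i, F (e.symm i) (x i) := by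
  rw [Finset.sum_range, ← Equiv.sum_comp e.symm]
  exact Finset.sum_congr rfl (fun i _ => by rw [ext_symm])

end ext

theorem key {ι : Type*} [Fintype ι] (A : Finset (ι → ℝ)) (δ : ℝ) :
    ∃ (V : (ι → ℝ) → ℝ) (C : ℝ), 0 ≤ C ∧
      (∀ x, (∀ i, 0 < x i) → V x ≤ ∑ i, (x i * Real.log (x i) + C * x i)) ∧
      (∀ x, (∀ i, 0 < x i) → ∑ i, (x i * Real.log (x i) - C * x i) ≤ V x) ∧
      ∀ x, (∀ i, 0 < x i) → ∀ η, 0 < η → ∃ w : ι → ℝ,
        (∀ y, (∀ i, 0 < y i) → V x - η + ∑ i, w i * (y i - x i) ≤ V y) ∧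
        (∀ i, |w i - Real.log (x i)| ≤ C) ∧
        ∀ a ∈ A, 0 < ∑ i, a i * w i →
          1 ≤ ∑ i, a i * w i ∧ δ ≤ ∑ i, a i * Real.log (x i) := by
  classical
  set n := Fintype.card ι with hn
  obtain ⟨α, hα, hαA⟩ := exists_ub A (fun a => ∑ i, |a i|)
  obtain ⟨S, hSn, hδ, hgap⟩ := exists_sys n
    (Finset.image₂ (fun (e : Fin n ≃ ι) a => ext e a) Finset.univ A) α δ hα
  have hT := @Sys.one_le_T S
  have hn0 : (0 : ℝ) ≤ n := Nat.cast_nonneg _
  have hval : ∀ (e : Fin n ≃ ι) (x : ι → ℝ) (t : ℕ → ℝ), S.val (ext e x) t =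
      ∑ i, t (e.symm i) * x i - ∑ j ∈ range n, Real.exp (t j - S.γ t j) := by
    intro e x t
    unfold Sys.val Sys.term
    rw [hSn, Finset.sum_sub_distrib, sum_ext e x (fun j z => t j * z)]
  have hpos : ∀ (e : Fin n ≃ ι) (x : ι → ℝ), (∀ i, 0 < x i) → ∀ j < S.n, 0 < ext e x j := by
    intro e x hx j hj
    rw [hSn] at hj
    rw [ext_lt e x hj]; exact hx _
  set Wset : (ι → ℝ) → Set ℝ :=
    fun x => {v | ∃ (e : Fin n ≃ ι) (t : ℕ → ℝ), S.Adm t n ∧ v = S.val (ext e x) t} with hW
  have hub : ∀ x, (∀ i, 0 < x i) → ∀ v ∈ Wset x,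
      v ≤ ∑ i, (x i * Real.log (x i) + (2 * n + 2) * S.T * x i) := by
    rintro x hx v ⟨e, t, _, rfl⟩
    rw [← sum_ext e x (fun _ z => z * Real.log z + (2 * n + 2) * S.T * z)]
    unfold Sys.val
    rw [hSn]
    refine Finset.sum_le_sum (fun j hj => ?_)
    have hj' : j < S.n := by rw [hSn]; exact Finset.mem_range.1 hj
    have h1 := Sys.term_le (t := t) hj' (hpos e x hx j hj')
    have h2 := hpos e x hx j hj'
    have h3 : 0 ≤ n * S.T * ext e x j := by positivity
    have h4 : 0 ≤ S.T * ext e x j := by positivity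
    nlinarith
  have hbdd : ∀ x, (∀ i, 0 < x i) → BddAbove (Wset x) := fun x hx => ⟨_, hub x hx⟩
  -- sorted enumerations
  have hsort : ∀ x : ι → ℝ, ∃ e : Fin n ≃ ι, Antitone (fun j => x (e j)) := by
    intro x
    set e1 : Fin n ≃ ι := (Fintype.equivFin ι).symm
    refine ⟨(Tuple.sort (fun j => -x (e1 j))).trans e1, fun a b hab => ?_⟩
    have := Tuple.monotone_sort (fun j => -x (e1 j)) hab
    simp only [Function.comp] at this
    simp only [Equiv.trans_apply]
    linarith
  have hanti : ∀ (x : ι → ℝ) (e : Fin n ≃ ι), Antitone (fun j => x (e j)) →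
      ∀ i j, i ≤ j → j < S.n → ext e x j ≤ ext e x i := by
    intro x e he i j hij hj
    rw [hSn] at hj
    rw [ext_lt e x hj, ext_lt e x (lt_of_le_of_lt hij hj)]
    exact he (show (⟨i, _⟩ : Fin n) ≤ ⟨j, hj⟩ from hij)
  have hlb : ∀ x, (∀ i, 0 < x i) → ∃ v ∈ Wset x,
      ∑ i, (x i * Real.log (x i) - (2 * n + 2) * S.T * x i) ≤ v := by
    intro x hx
    obtain ⟨e, he⟩ := hsort x
    obtain ⟨t, ht, h⟩ := Sys.exists_good (hpos e x hx) (hanti x e he)
    refine ⟨_, ⟨e, t, by rw [← hSn]; exact ht, rfl⟩, ?_⟩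
    rw [← sum_ext e x (fun _ z => z * Real.log z - (2 * n + 2) * S.T * z)]
    unfold Sys.val
    rw [hSn]
    refine Finset.sum_le_sum (fun j hj => ?_)
    have hj' : j < S.n := by rw [hSn]; exact Finset.mem_range.1 hj
    have h1 := h j hj'
    have h2 := hpos e x hx j hj'
    rw [hSn] at h1
    nlinarith
  refine ⟨fun x => sSup (Wset x), (2 * n + 2) * S.T, by positivity, fun x hx => ?_,
    fun x hx => ?_, fun x hx η hη => ?_⟩
  · obtain ⟨v, hv, _⟩ := hlb x hx
    exact csSup_le ⟨v, hv⟩ (hub x hx)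
  · obtain ⟨v, hv, h⟩ := hlb x hx
    exact le_trans h (le_csSup (hbdd x hx) hv)
  · obtain ⟨m, hm, hmx⟩ := exists_pos_lb Finset.univ (fun i => x i / 2)
    set η' := min η m with hη'
    have hη'pos : 0 < η' := lt_min hη hm
    obtain ⟨v0, hv0, _⟩ := hlb x hx
    obtain ⟨v, ⟨e1, t, ht, rfl⟩, hv⟩ := exists_lt_of_lt_csSup ⟨v0, hv0⟩
      (show sSup (Wset x) - η' < sSup (Wset x) by linarith)
    obtain ⟨e, he⟩ := hsort x
    have htS : S.Adm t S.n := by rw [hSn]; exact ht
    have hre : S.val (ext e1 x) t ≤ S.val (ext e x) t := by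
      rw [hval, hval, ← Equiv.sum_comp e1, ← Equiv.sum_comp e]
      simp only [Equiv.symm_apply_apply]
      have h1 : Antitone (fun j : Fin n => t j) :=
        fun a b hab => ht.anti hab b.2
      have h2 := (h1.monovary he).sum_mul_comp_perm_le_sum_mul (σ := e1.trans e.symm)
      simp only [Equiv.trans_apply, Equiv.apply_symm_apply] at h2
      linarith
    have hmax : ∀ t', S.Adm t' S.n → S.val (ext e x) t' ≤ S.val (ext e x) t + η' := by
      intro t' ht'
      have : S.val (ext e x) t' ≤ sSup (Wset x) :=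
        le_csSup (hbdd x hx) ⟨e, t', by rw [← hSn]; exact ht', rfl⟩
      linarith
    have hηx : ∀ j < S.n, η' ≤ ext e x j / 2 := by
      intro j hj
      rw [hSn] at hj
      rw [ext_lt e x hj]
      exact le_trans (min_le_right _ _)
        (hmx _ (Finset.mem_univ _) (by have := hx (e ⟨j, hj⟩); positivity))
    have hoff : ∀ i, |t (e.symm i) - Real.log (x i)| ≤ 2 * S.Lo t := by
      intro i
      have hj : ((e.symm i : Fin n) : ℕ) < S.n := by rw [hSn]; exact (e.symm i).2
      have h1 := Sys.offset_lower (hpos e x hx) (hanti x e he) htS hηx hmax hj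
      have h2 := Sys.offset_upper (hpos e x hx) (hanti x e he) htS hηx hmax hj
      rw [ext_symm] at h1 h2
      rw [abs_le]; constructor <;> linarith
    have hLoT := Sys.Lo_le_T (S := S) t
    have hLo0 := Sys.Lo_ge_T0 (S := S) t
    have hT0 := S.hT0
    refine ⟨fun i => t (e.symm i), fun y hy => ?_, fun i => ?_, fun a ha hpos' => ?_⟩
    · have h1 : S.val (ext e y) t ≤ sSup (Wset y) := le_csSup (hbdd y hy) ⟨e, t, ht, rfl⟩
      have h2 : ∑ i, t (e.symm i) * (y i - x i)
          = ∑ i, t (e.symm i) * y i - ∑ i, t (e.symm i) * x i := by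
        rw [← Finset.sum_sub_distrib]; exact Finset.sum_congr rfl (fun i _ => by ring)
      rw [hval] at h1 hre
      have h3 : η' ≤ η := min_le_left _ _
      rw [hval e x t] at hre
      rw [hval e1 x t] at hv
      show sSup (Wset x) - η + _ ≤ sSup (Wset y)
      linarith
    · have := hoff i
      have h3 : 0 ≤ n * S.T := by positivity
      nlinarith
    · have hmem : ext e a ∈ Finset.image₂ (fun (e : Fin n ≃ ι) a => ext e a) Finset.univ A :=
        Finset.mem_image₂_of_mem (Finset.mem_univ _) ha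
      have h1 := hgap t ht _ hmem
      rw [sum_ext e a (fun j z => z * t j)] at h1
      have h2 : (2 * α + 1) * S.Lo t ≤ ∑ i, a i * t (e.symm i) := by
        rcases h1 with h1 | h1
        · exact absurd h1 hpos'.ne'
        · rwa [abs_of_pos hpos'] at h1
      have h3 : ∑ i, a i * t (e.symm i) - ∑ i, a i * Real.log (x i) ≤ α * (2 * S.Lo t) := by
        rw [← Finset.sum_sub_distrib]
        calc ∑ i, (a i * t (e.symm i) - a i * Real.log (x i))
            ≤ ∑ i, |a i| * (2 * S.Lo t) := by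
              refine Finset.sum_le_sum (fun i _ => ?_)
              rw [← mul_sub]
              calc a i * (t (e.symm i) - Real.log (x i))
                  ≤ |a i * (t (e.symm i) - Real.log (x i))| := le_abs_self _
                _ = |a i| * |t (e.symm i) - Real.log (x i)| := abs_mul _ _
                _ ≤ |a i| * (2 * S.Lo t) := mul_le_mul_of_nonneg_left (hoff i) (abs_nonneg _)
          _ = (∑ i, |a i|) * (2 * S.Lo t) := by rw [Finset.sum_mul]
          _ ≤ α * (2 * S.Lo t) := mul_le_mul_of_nonneg_right (hαA a ha) (by linarith)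
      constructor
      · show 1 ≤ ∑ i, a i * t (e.symm i)
        nlinarith
      · nlinarith

end Vale.Agent.P072
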