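import Vale.Agent.P072.Defs
import Vale.Agent.P072.Key

/-! Order-compatible slopes decrease along the mass-action field. -/

namespace Vale.Agent.P072

open Finset Real

variable {d : ℕ}

/-- monomial -/
noncomputable def mono (x : Fin d → ℝ) (y : Fin d → ℕ) : ℝ := ∏ j, x j ^ y j

/-- pairing with a complex -/
noncomputable def dot (w : Fin d → ℝ) (y : Fin d → ℕ) : ℝ := ∑ i, w i * y i

/-- complexes -/
def cxs (R : Finset ((Fin d → ℕ) × (Fin d → ℕ))) : Finset (Fin d → ℕ) :=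
  R.image Prod.fst ∪ R.image Prod.snd

/-- downward flux -/
noncomputable def down (R : Finset ((Fin d → ℕ) × (Fin d → ℕ))) (x w : Fin d → ℝ) : ℝ :=
  ∑ r ∈ R, mono x r.1 * max (dot w r.1 - dot w r.2) 0

/-- compatibility in multiplicative form -/
def Compat (R : Finset ((Fin d → ℕ) × (Fin d → ℕ))) (δ : ℝ) (x w : Fin d → ℝ) : Prop :=
  ∀ y ∈ cxs R, ∀ z ∈ cxs R, dot w y < dot w z → Real.exp δ * mono x y ≤ mono x z

lemma fst_mem_cxs {R : Finset ((Fin d → ℕ) × (Fin d → ℕ))} {r} (h : r ∈ R) : r.1 ∈ cxs R :=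
  Finset.mem_union_left _ (Finset.mem_image_of_mem _ h)

lemma snd_mem_cxs {R : Finset ((Fin d → ℕ) × (Fin d → ℕ))} {r} (h : r ∈ R) : r.2 ∈ cxs R :=
  Finset.mem_union_right _ (Finset.mem_image_of_mem _ h)

lemma mono_pos {x : Fin d → ℝ} (hx : ∀ i, 0 < x i) (y : Fin d → ℕ) : 0 < mono x y :=
  Finset.prod_pos (fun j _ => pow_pos (hx j) _)

lemma mono_eq_exp {x : Fin d → ℝ} (hx : ∀ i, 0 < x i) (y : Fin d → ℕ) :
    mono x y = Real.exp (∑ i, (y i : ℝ) * Real.log (x i)) := by
  rw [Real.exp_sum]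
  refine Finset.prod_congr rfl (fun j _ => ?_)
  rw [← Real.log_pow, Real.exp_log (pow_pos (hx j) _)]

lemma down_term_le {R : Finset ((Fin d → ℕ) × (Fin d → ℕ))} {x : Fin d → ℝ} (hx : ∀ i, 0 < x i)
    (w : Fin d → ℝ) {r} (hr : r ∈ R) :
    mono x r.1 * max (dot w r.1 - dot w r.2) 0 ≤ down R x w :=
  Finset.single_le_sum (f := fun r => mono x r.1 * max (dot w r.1 - dot w r.2) 0)
    (fun _ _ => mul_nonneg (mono_pos hx _).le (le_max_right _ _)) hr

lemma down_nonneg (R : Finset ((Fin d → ℕ) × (Fin d → ℕ))) {x : Fin d → ℝ} (hx : ∀ i, 0 < x i)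
    (w : Fin d → ℝ) : 0 ≤ down R x w :=
  Finset.sum_nonneg (fun _ _ => mul_nonneg (mono_pos hx _).le (le_max_right _ _))

lemma path_bound {R : Finset ((Fin d → ℕ) × (Fin d → ℕ))} {y z : Fin d → ℕ} (hy : y ∈ cxs R)
    (h : Relation.ReflTransGen (fun y y' => (y, y') ∈ R) z y) :
    ∃ N : ℝ, 0 ≤ N ∧ ∀ (δ : ℝ) (x w : Fin d → ℝ), (∀ i, 0 < x i) → Compat R δ x w →
      Real.exp δ * mono x y * (dot w z - dot w y) ≤ N * down R x w := by
  induction h using Relation.ReflTransGen.head_induction_on with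
  | refl => exact ⟨0, le_rfl, fun δ x w _ _ => by simp⟩
  | @head a b hab _ ih =>
    obtain ⟨N, hN, H⟩ := ih
    refine ⟨N + 1, by linarith, fun δ x w hx hc => ?_⟩
    have h0 := down_nonneg R hx w
    have h1 : 0 < Real.exp δ * mono x y := mul_pos (Real.exp_pos _) (mono_pos hx _)
    rcases le_or_gt (dot w a) (dot w y) with h2 | h2
    · have : Real.exp δ * mono x y * (dot w a - dot w y) ≤ 0 :=
        mul_nonpos_of_nonneg_of_nonpos h1.le (by linarith)
      nlinarith
    · have h3 := hc y hy a (fst_mem_cxs hab) h2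
      have h4 := H δ x w hx hc
      have h5 := down_term_le hx w hab
      simp only at h5
      have h6 : dot w a - dot w b ≤ max (dot w a - dot w b) 0 := le_max_left _ _
      have h7 : 0 ≤ max (dot w a - dot w b) 0 := le_max_right _ _
      have h8 : Real.exp δ * mono x y * (dot w a - dot w b) ≤ down R x w :=
        calc Real.exp δ * mono x y * (dot w a - dot w b)
            ≤ Real.exp δ * mono x y * max (dot w a - dot w b) 0 :=
              mul_le_mul_of_nonneg_left h6 h1.le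
          _ ≤ mono x a * max (dot w a - dot w b) 0 := mul_le_mul_of_nonneg_right h3 h7
          _ ≤ down R x w := h5
      nlinarith

lemma sum_mul_massAction (R : Finset ((Fin d → ℕ) × (Fin d → ℕ)))
    (k : (Fin d → ℕ) × (Fin d → ℕ) → ℝ) (x w : Fin d → ℝ) :
    ∑ i, w i * massAction R k x i = ∑ r ∈ R, k r * mono x r.1 * (dot w r.2 - dot w r.1) := by
  unfold massAction mono dot
  simp only [Finset.mul_sum]
  rw [Finset.sum_comm]
  refine Finset.sum_congr rfl (fun r _ => ?_)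
  rw [← Finset.sum_sub_distrib, Finset.mul_sum]
  exact Finset.sum_congr rfl (fun i _ => by ring)

theorem dissip {R : Finset ((Fin d → ℕ) × (Fin d → ℕ))} (hR : WeaklyReversible R) {ε : ℝ}
    (hε : 0 < ε) : ∃ δ : ℝ, ∀ (x w : Fin d → ℝ) (k : (Fin d → ℕ) × (Fin d → ℕ) → ℝ),
      (∀ i, 0 < x i) → (∀ r ∈ R, ε ≤ k r ∧ k r ≤ ε⁻¹) → Compat R δ x w →
      ∑ i, w i * massAction R k x i ≤ -(ε / 2) * down R x w := by
  classical
  have h1 : ∀ r : (Fin d → ℕ) × (Fin d → ℕ), ∃ N : ℝ, 0 ≤ N ∧ (r ∈ R →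
      ∀ (δ : ℝ) (x w : Fin d → ℝ), (∀ i, 0 < x i) → Compat R δ x w →
      Real.exp δ * mono x r.1 * (dot w r.2 - dot w r.1) ≤ N * down R x w) := by
    intro r
    by_cases hr : r ∈ R
    · obtain ⟨N, hN, H⟩ := path_bound (fst_mem_cxs hr) (hR r hr)
      exact ⟨N, hN, fun _ => H⟩
    · exact ⟨0, le_rfl, fun h => absurd h hr⟩
  choose N hN0 hN using h1
  set M := ∑ r ∈ R, N r with hM
  have hM0 : 0 ≤ M := Finset.sum_nonneg (fun r _ => hN0 r)
  refine ⟨2 * ε⁻¹ * ε⁻¹ * M, fun x w k hx hk hc => ?_⟩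
  set δ := 2 * ε⁻¹ * ε⁻¹ * M with hδ
  have hD := down_nonneg R hx w
  have hE := Real.exp_pos δ
  have hεi : 0 < ε⁻¹ := inv_pos.2 hε
  rw [sum_mul_massAction]
  have h2 : ∀ r ∈ R, k r * mono x r.1 * (dot w r.2 - dot w r.1) ≤
      ε⁻¹ * (Real.exp δ)⁻¹ * down R x w * N r
        - ε * (mono x r.1 * max (dot w r.1 - dot w r.2) 0) := by
    intro r hr
    have hm := mono_pos hx r.1
    have h3 : 0 ≤ ε⁻¹ * (Real.exp δ)⁻¹ * down R x w * N r := by
      have := hN0 r
      positivity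
    rcases le_or_gt (dot w r.1) (dot w r.2) with h | h
    · rw [max_eq_right (by linarith)]
      have h4 := hN r hr δ x w hx hc
      have h5 : mono x r.1 * (dot w r.2 - dot w r.1) ≤ (Real.exp δ)⁻¹ * (N r * down R x w) := by
        rw [le_inv_mul_iff₀ hE]; linarith
      have h6 : 0 ≤ mono x r.1 * (dot w r.2 - dot w r.1) := mul_nonneg hm.le (by linarith)
      calc k r * mono x r.1 * (dot w r.2 - dot w r.1)
          = k r * (mono x r.1 * (dot w r.2 - dot w r.1)) := by ring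
        _ ≤ ε⁻¹ * ((Real.exp δ)⁻¹ * (N r * down R x w)) :=
          mul_le_mul (hk r hr).2 h5 h6 hεi.le
        _ = _ := by ring
    · rw [max_eq_left (by linarith)]
      have h6 : 0 ≤ mono x r.1 * (dot w r.1 - dot w r.2) := mul_nonneg hm.le (by linarith)
      have h7 := mul_le_mul_of_nonneg_right (hk r hr).1 h6
      nlinarith
  have h3 := Finset.sum_le_sum h2
  rw [Finset.sum_sub_distrib, ← Finset.mul_sum, ← Finset.mul_sum] at h3
  have h4 : ε⁻¹ * (Real.exp δ)⁻¹ * M ≤ ε / 2 := by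
    have h5 : δ ≤ Real.exp δ := by have := Real.add_one_le_exp δ; linarith
    have h6 : ε⁻¹ * M = ε / 2 * δ := by rw [hδ]; field_simp
    have h7 : ε⁻¹ * (Real.exp δ)⁻¹ * M = (Real.exp δ)⁻¹ * (ε / 2 * δ) := by rw [← h6]; ring
    rw [h7, inv_mul_le_iff₀ hE]
    nlinarith
  have h8 : ε⁻¹ * (Real.exp δ)⁻¹ * down R x w * M ≤ ε / 2 * down R x w := by
    have := mul_le_mul_of_nonneg_right h4 hD
    nlinarith
  have e : ∑ r ∈ R, mono x r.1 * max (dot w r.1 - dot w r.2) 0 = down R x w := rfl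
  rw [e] at h3
  linarith

lemma exists_down_edge {R : Finset ((Fin d → ℕ) × (Fin d → ℕ))} (hR : WeaklyReversible R)
    {w : Fin d → ℝ} (h : ∃ r ∈ R, dot w r.1 ≠ dot w r.2) : ∃ r ∈ R, dot w r.2 < dot w r.1 := by
  by_contra hc
  push Not at hc
  obtain ⟨r, hr, hne⟩ := h
  have key : ∀ a b, Relation.ReflTransGen (fun y y' => (y, y') ∈ R) a b → dot w a ≤ dot w b := by
    intro a b hab
    induction hab with
    | refl => exact le_rfl
    | tail _ h2 ih => exact le_trans ih (hc _ h2)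
  exact hne (le_antisymm (hc r hr) (key _ _ (hR r hr)))

/-- the test vectors: differences of complexes and signed coordinate vectors -/
noncomputable def tests (R : Finset ((Fin d → ℕ) × (Fin d → ℕ))) : Finset (Fin d → ℝ) := by
  classical
  exact Finset.image₂ (fun y z : Fin d → ℕ => fun i => (z i : ℝ) - y i) (cxs R) (cxs R) ∪
    (Finset.univ.image (fun i : Fin d => (Pi.single i 1 : Fin d → ℝ)) ∪
      Finset.univ.image (fun i : Fin d => (Pi.single i (-1) : Fin d → ℝ)))

lemma diff_mem_tests {R : Finset ((Fin d → ℕ) × (Fin d → ℕ))} {y z : Fin d → ℕ}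
    (hy : y ∈ cxs R) (hz : z ∈ cxs R) : (fun i => (z i : ℝ) - y i) ∈ tests R := by
  classical
  unfold tests
  exact Finset.mem_union_left _ (Finset.mem_image₂_of_mem hy hz)

lemma single_mem_tests (R : Finset ((Fin d → ℕ) × (Fin d → ℕ))) (i : Fin d) :
    (Pi.single i 1 : Fin d → ℝ) ∈ tests R := by
  classical
  unfold tests
  exact Finset.mem_union_right _ (Finset.mem_union_left _
    (Finset.mem_image_of_mem _ (Finset.mem_univ i)))

lemma neg_single_mem_tests (R : Finset ((Fin d → ℕ) × (Fin d → ℕ))) (i : Fin d) :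
    (Pi.single i (-1) : Fin d → ℝ) ∈ tests R := by
  classical
  unfold tests
  exact Finset.mem_union_right _ (Finset.mem_union_right _
    (Finset.mem_image_of_mem _ (Finset.mem_univ i)))

lemma sum_diff_mul (w : Fin d → ℝ) (y z : Fin d → ℕ) :
    ∑ i, ((z i : ℝ) - y i) * w i = dot w z - dot w y := by
  unfold dot
  rw [← Finset.sum_sub_distrib]
  exact Finset.sum_congr rfl (fun i _ => by ring)

lemma compat_of_tests {R : Finset ((Fin d → ℕ) × (Fin d → ℕ))} {δ : ℝ} {x w : Fin d → ℝ}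
    (hx : ∀ i, 0 < x i)
    (h : ∀ a ∈ tests R, 0 < ∑ i, a i * w i → δ ≤ ∑ i, a i * Real.log (x i)) :
    Compat R δ x w := by
  intro y hy z hz hlt
  have h1 := h _ (diff_mem_tests hy hz) (by rw [sum_diff_mul]; linarith)
  rw [mono_eq_exp hx, mono_eq_exp hx, ← Real.exp_add]
  apply Real.exp_le_exp.2
  have h2 : ∑ i, ((z i : ℝ) - y i) * Real.log (x i)
      = ∑ i, (z i : ℝ) * Real.log (x i) - ∑ i, (y i : ℝ) * Real.log (x i) := by
    rw [← Finset.sum_sub_distrib]
    exact Finset.sum_congr rfl (fun i _ => by ring)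
  linarith

/-- The Lyapunov function for a subset `I` of the species. -/
theorem keyI (I : Finset (Fin d)) (A : Finset (Fin d → ℝ)) (δ N : ℝ) (hN : 0 ≤ N) :
    ∃ (V : (Fin d → ℝ) → ℝ) (C : ℝ), 0 ≤ C ∧
      (∀ x, (∀ i, 0 < x i) → V x ≤ ∑ i ∈ I, (x i * Real.log (x i) + C * x i)) ∧
      (∀ x, (∀ i, 0 < x i) → ∑ i ∈ I, (x i * Real.log (x i) - C * x i) ≤ V x) ∧
      ∀ x, (∀ i, 0 < x i) → (∀ j, j ∉ I → |Real.log (x j)| ≤ N) → ∀ η, 0 < η →
        ∃ w : Fin d → ℝ,
        (∀ y, (∀ i, 0 < y i) → V x - η + ∑ i, w i * (y i - x i) ≤ V y) ∧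
        (∀ i ∈ I, |w i - Real.log (x i)| ≤ C) ∧
        ∀ a ∈ A, 0 < ∑ i, a i * w i →
          1 ≤ ∑ i, a i * w i ∧ δ ≤ ∑ i, a i * Real.log (x i) := by
  classical
  obtain ⟨α, hα, hαA⟩ := exists_ub A (fun a => ∑ i, |a i|)
  obtain ⟨V, C, hC, h1, h2, h3⟩ := key (ι := I)
    (A.image (fun a => fun i : I => a i)) (δ + α * N)
  refine ⟨fun x => V (fun i : I => x i), C, hC, fun x hx => ?_, fun x hx => ?_,
    fun x hx hxN η hη => ?_⟩
  · have := h1 (fun i : I => x i) (fun i => hx i)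
    rwa [Finset.sum_coe_sort I (fun i => x i * Real.log (x i) + C * x i)] at this
  · have := h2 (fun i : I => x i) (fun i => hx i)
    rwa [Finset.sum_coe_sort I (fun i => x i * Real.log (x i) - C * x i)] at this
  · obtain ⟨w, hw1, hw2, hw3⟩ := h3 (fun i : I => x i) (fun i => hx i) η hη
    set W : Fin d → ℝ := fun i => if h : i ∈ I then w ⟨i, h⟩ else 0 with hW
    have hWI : ∀ i : I, W i = w i := fun i => by simp [hW, i.2]
    have hsum : ∀ g : Fin d → ℝ, ∑ i, g i * W i = ∑ i : I, g i * w i := by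
      intro g
      rw [← Finset.sum_subset (Finset.subset_univ I) (fun i _ hi => by simp [hW, hi]),
        ← Finset.sum_coe_sort I (fun i => g i * W i)]
      exact Finset.sum_congr rfl (fun i _ => by rw [hWI])
    refine ⟨W, fun y hy => ?_, fun i hi => ?_, fun a ha hpos => ?_⟩
    · have := hw1 (fun i : I => y i) (fun i => hy i)
      have e : ∑ i, W i * (y i - x i) = ∑ i : I, w i * (y i - x i) := by
        have := hsum (fun i => y i - x i)
        simp only [mul_comm] at this ⊢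
        exact this
      rw [e]; exact this
    · have := hw2 ⟨i, hi⟩
      rw [← hWI] at this
      exact this
    · rw [hsum] at hpos ⊢
      obtain ⟨h4, h5⟩ := hw3 _ (Finset.mem_image_of_mem _ ha) hpos
      refine ⟨h4, ?_⟩
      rw [Finset.sum_coe_sort I (fun i => a i * Real.log (x i))] at h5
      rw [← Finset.sum_add_sum_compl I]
      have h6 : -(α * N) ≤ ∑ i ∈ Iᶜ, a i * Real.log (x i) := by
        have h7 : ∑ i ∈ Iᶜ, -(|a i| * N) ≤ ∑ i ∈ Iᶜ, a i * Real.log (x i) := by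
          refine Finset.sum_le_sum (fun i hi => ?_)
          have h8 := hxN i (Finset.mem_compl.1 hi)
          have h9 : |a i * Real.log (x i)| ≤ |a i| * N := by
            rw [abs_mul]; exact mul_le_mul_of_nonneg_left h8 (abs_nonneg _)
          linarith [neg_abs_le (a i * Real.log (x i))]
        rw [Finset.sum_neg_distrib, ← Finset.sum_mul] at h7
        have h10 : ∑ i ∈ Iᶜ, |a i| ≤ α :=
          le_trans (Finset.sum_le_sum_of_subset_of_nonneg (Finset.subset_univ _)
            (fun _ _ _ => abs_nonneg _)) (hαA a ha)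
        nlinarith
      linarith

end Vale.Agent.P072
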