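import Mathlib

/-! Existence and uniqueness for integral equations with a Lipschitz field. -/

namespace Vale.Agent.P072

open Set Filter Topology MeasureTheory

section general

variable {E : Type*} [NormedAddCommGroup E] [NormedSpace ℝ E]

lemma int_est {h : ℝ → E} {L D τ : ℝ} (hD : 0 ≤ D) (hτ : 0 ≤ τ)
    (H : ∀ s ∈ Icc 0 τ, ‖h s‖ ≤ L * Real.exp (2 * L * s) * D) :
    ‖∫ s in (0 : ℝ)..τ, h s‖ ≤ Real.exp (2 * L * τ) * D / 2 := by
  have hc : Continuous (fun s : ℝ => L * Real.exp (2 * L * s) * D) := by fun_prop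
  have h1 := intervalIntegral.norm_integral_le_of_norm_le (μ := volume) hτ
    (Eventually.of_forall (fun s hs => H s ⟨hs.1.le, hs.2⟩)) (hc.intervalIntegrable 0 τ)
  have h2 : ∫ s in (0 : ℝ)..τ, L * Real.exp (2 * L * s) * D
      = Real.exp (2 * L * τ) * D / 2 - Real.exp (2 * L * 0) * D / 2 := by
    apply intervalIntegral.integral_eq_sub_of_hasDerivAt
      (f := fun s => Real.exp (2 * L * s) * D / 2)
    · intro s _
      have h3 : HasDerivAt (fun s : ℝ => 2 * L * s) (2 * L) s := by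
        simpa using (hasDerivAt_id s).const_mul (2 * L)
      have h4 := (h3.exp.mul_const D).div_const 2
      have h6 : L * Real.exp (2 * L * s) * D = Real.exp (2 * L * s) * (2 * L) * D / 2 := by ring
      rw [h6]
      exact h4
    · exact hc.intervalIntegrable 0 τ
  have h5 : 0 ≤ Real.exp (2 * L * 0) * D / 2 := by positivity
  linarith

theorem exists_global [CompleteSpace E] {G : ℝ → E → E} {L B : ℝ} (hL : 0 < L)
    (hmeas : ∀ z : ℝ → E, Continuous z → AEStronglyMeasurable (fun t => G t (z t)) volume)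
    (hB : ∀ t x, ‖G t x‖ ≤ B) (hlip : ∀ t x y, ‖G t x - G t y‖ ≤ L * ‖x - y‖) (x0 : E) :
    ∃ x : ℝ → E, Continuous x ∧ (∀ a b, IntervalIntegrable (fun s => G s (x s)) volume a b) ∧
      ∀ t, 0 ≤ t → x t = x0 + ∫ s in (0 : ℝ)..t, G s (x s) := by
  have hB0 : 0 ≤ B := le_trans (norm_nonneg _) (hB 0 x0)
  have hint : ∀ z : ℝ → E, Continuous z → ∀ a b,
      IntervalIntegrable (fun s => G s (z s)) volume a b := fun z hz a b =>
    IntervalIntegrable.mono_fun' (g := fun _ => B) intervalIntegrable_const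
      (hmeas z hz).restrict (Eventually.of_forall (fun s => hB s _))
  set X : BoundedContinuousFunction ℝ E → ℝ → E :=
    fun u s => x0 + Real.exp (2 * L * max s 0) • u s with hX
  have hXc : ∀ u, Continuous (X u) := fun u => by
    have := u.continuous
    rw [hX]; fun_prop
  have hΦc : ∀ u, Continuous (fun t : ℝ =>
      Real.exp (-(2 * L * max t 0)) • ∫ s in (0 : ℝ)..(max t 0), G s (X u s)) := fun u => by
    have h1 := intervalIntegral.continuous_primitive (hint _ (hXc u)) 0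
    have h2 : Continuous (fun t : ℝ => max t 0) := by fun_prop
    exact Continuous.smul (by fun_prop) (h1.comp h2)
  have hΦb : ∀ u t, ‖Real.exp (-(2 * L * max t 0)) • ∫ s in (0 : ℝ)..(max t 0), G s (X u s)‖
      ≤ B / (2 * L) := fun u t => by
    have h0 : 0 ≤ max t 0 := le_max_right _ _
    have h1 := intervalIntegral.norm_integral_le_of_norm_le_const (a := 0) (b := max t 0)
      (f := fun s => G s (X u s)) (fun s _ => hB s _)
    rw [sub_zero, abs_of_nonneg h0] at h1
    rw [norm_smul, Real.norm_eq_abs, abs_of_pos (Real.exp_pos _), Real.exp_neg,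
      inv_mul_le_iff₀ (Real.exp_pos _)]
    have h2 := Real.add_one_le_exp (2 * L * max t 0)
    have h3 : B * max t 0 = (2 * L * max t 0) * (B / (2 * L)) := by field_simp
    have h4 : 0 ≤ B / (2 * L) := by positivity
    nlinarith
  set Φ : BoundedContinuousFunction ℝ E → BoundedContinuousFunction ℝ E :=
    fun u => BoundedContinuousFunction.ofNormedAddCommGroup _ (hΦc u) _ (hΦb u) with hΦ
  have hΦapp : ∀ u t, Φ u t =
      Real.exp (-(2 * L * max t 0)) • ∫ s in (0 : ℝ)..(max t 0), G s (X u s) := fun _ _ => rfl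
  have hcontr : ContractingWith (1 / 2) Φ := by
    refine ⟨by norm_num, LipschitzWith.of_dist_le_mul (fun u v => ?_)⟩
    rw [BoundedContinuousFunction.dist_le (by positivity)]
    intro t
    have h0 : 0 ≤ max t 0 := le_max_right _ _
    rw [hΦapp, hΦapp, dist_eq_norm, ← smul_sub,
      ← intervalIntegral.integral_sub (hint _ (hXc u) _ _) (hint _ (hXc v) _ _),
      norm_smul, Real.norm_eq_abs, abs_of_pos (Real.exp_pos _), Real.exp_neg,
      inv_mul_le_iff₀ (Real.exp_pos _)]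
    have h1 := int_est (h := fun s => G s (X u s) - G s (X v s)) (L := L) (dist_nonneg (x := u) (y := v))
      h0 (fun s hs => by
        refine le_trans (hlip s _ _) ?_
        have h2 : X u s - X v s = Real.exp (2 * L * s) • (u s - v s) := by
          rw [hX]; simp only [max_eq_left hs.1, smul_sub]; abel
        rw [h2, norm_smul, Real.norm_eq_abs, abs_of_pos (Real.exp_pos _), ← dist_eq_norm,
          mul_assoc L]
        exact mul_le_mul_of_nonneg_left (mul_le_mul_of_nonneg_left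
          (BoundedContinuousFunction.dist_coe_le_dist (f := u) (g := v) s)
          (Real.exp_pos _).le) hL.le)
    push_cast
    linarith
  set u := ContractingWith.fixedPoint Φ hcontr with hu
  have hfix : Φ u = u := hcontr.fixedPoint_isFixedPt
  refine ⟨X u, hXc u, hint _ (hXc u), fun t ht => ?_⟩
  have h1 : u t = Real.exp (-(2 * L * max t 0)) • ∫ s in (0 : ℝ)..(max t 0), G s (X u s) := by
    rw [← hΦapp, hfix]
  have h2 : X u t = x0 + Real.exp (2 * L * max t 0) • u t := rfl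
  rw [h2, h1, smul_smul, ← Real.exp_add, add_neg_cancel, Real.exp_zero, one_smul,
    max_eq_left ht]

theorem unique_int {f g x z : ℝ → E} {L T : ℝ} (hL : 0 < L) (hT : 0 ≤ T)
    (hx : ContinuousOn x (Icc 0 T)) (hz : ContinuousOn z (Icc 0 T))
    (hf : ∀ t ∈ Icc 0 T, IntervalIntegrable f volume 0 t ∧ x t = x 0 + ∫ s in (0 : ℝ)..t, f s)
    (hg : ∀ t ∈ Icc 0 T, IntervalIntegrable g volume 0 t ∧ z t = z 0 + ∫ s in (0 : ℝ)..t, g s)
    (h0 : x 0 = z 0) (hlip : ∀ s ∈ Icc 0 T, ‖f s - g s‖ ≤ L * ‖x s - z s‖) :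
    ∀ t ∈ Icc 0 T, x t = z t := by
  have hc : ContinuousOn (fun t => Real.exp (-(2 * L * t)) * ‖x t - z t‖) (Icc 0 T) :=
    ContinuousOn.mul (by fun_prop) (hx.sub hz).norm
  obtain ⟨τ, hτ, hmax⟩ := isCompact_Icc.exists_isMaxOn (nonempty_Icc.2 hT) hc
  set D := Real.exp (-(2 * L * τ)) * ‖x τ - z τ‖ with hD
  have hD0 : 0 ≤ D := by positivity
  have hle : ∀ s ∈ Icc 0 T, ‖x s - z s‖ ≤ Real.exp (2 * L * s) * D := by
    intro s hs
    have h1 : Real.exp (-(2 * L * s)) * ‖x s - z s‖ ≤ D := hmax hs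
    rwa [Real.exp_neg, inv_mul_le_iff₀ (Real.exp_pos _)] at h1
  have h2 : x τ - z τ = ∫ s in (0 : ℝ)..τ, (f s - g s) := by
    rw [intervalIntegral.integral_sub (hf τ hτ).1 (hg τ hτ).1, (hf τ hτ).2, (hg τ hτ).2, h0]
    abel
  have h3 := int_est (h := fun s => f s - g s) (L := L) hD0 hτ.1 (fun s hs => by
    have hs' : s ∈ Icc 0 T := ⟨hs.1, le_trans hs.2 hτ.2⟩
    refine le_trans (hlip s hs') ?_
    rw [mul_assoc L]
    exact mul_le_mul_of_nonneg_left (hle s hs') hL.le)
  rw [← h2] at h3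
  have h4 : D ≤ D / 2 := by
    have h5 : D = Real.exp (-(2 * L * τ)) * ‖x τ - z τ‖ := rfl
    nth_rewrite 1 [h5]
    rw [Real.exp_neg, inv_mul_le_iff₀ (Real.exp_pos _)]
    linarith
  have h6 : D = 0 := by linarith
  intro t ht
  have h7 := hle t ht
  rw [h6, mul_zero] at h7
  exact sub_eq_zero.1 (norm_le_zero_iff.1 h7)

end general

lemma stay {X : Type*} [TopologicalSpace X] {x : ℝ → X} {T : ℝ} {U K : Set X} (hU : IsOpen U)
    (hK : IsClosed K) (hKU : K ⊆ U) (hc : ContinuousOn x (Icc 0 T)) (h0 : x 0 ∈ U)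
    (H : ∀ b ∈ Icc 0 T, (∀ u ∈ Icc 0 b, x u ∈ U) → x b ∈ K) : ∀ u ∈ Icc 0 T, x u ∈ K := by
  have hall : ∀ u ∈ Icc 0 T, x u ∈ U := by
    by_contra hcon
    push Not at hcon
    have hZ : IsCompact (Icc 0 T ∩ x ⁻¹' Uᶜ) :=
      isCompact_Icc.of_isClosed_subset
        (hc.preimage_isClosed_of_isClosed isClosed_Icc hU.isClosed_compl) inter_subset_left
    obtain ⟨u, hu, hu2⟩ := hcon
    obtain ⟨u0, ⟨h1, h2⟩, hmin⟩ := hZ.exists_isLeast ⟨u, hu, hu2⟩
    have hpos : 0 < u0 := by
      rcases h1.1.eq_or_lt with e | e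
      · rw [← e] at h2; exact absurd h0 h2
      · exact e
    have h3 : ∀ b ∈ Ico 0 u0, x b ∈ K := by
      intro b hb
      refine H b ⟨hb.1, le_trans hb.2.le h1.2⟩ (fun v hv => ?_)
      by_contra hv2
      have := hmin ⟨⟨hv.1, le_trans hv.2 (le_trans hb.2.le h1.2)⟩, hv2⟩
      linarith [hv.2, hb.2]
    have h4 : x u0 ∈ closure (x '' Ico 0 u0) := by
      refine ContinuousWithinAt.mem_closure_image ((hc u0 h1).mono ?_) ?_
      · exact fun v hv => ⟨hv.1, le_trans hv.2.le h1.2⟩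
      · rw [closure_Ico hpos.ne]; exact ⟨hpos.le, le_rfl⟩
    have h5 : closure (x '' Ico 0 u0) ⊆ K :=
      closure_minimal (by rintro _ ⟨b, hb, rfl⟩; exact h3 b hb) hK
    exact h2 (hKU (h5 h4))
  exact fun u hu => H u hu (fun v hv => hall v ⟨hv.1, le_trans hv.2 hu.2⟩)

end Vale.Agent.P072
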