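import Vale.Agent.P072.Apriori
import Vale.Agent.P072.Ode

/-! Permanence of weakly reversible mass-action systems. -/

namespace Vale.Agent.P072

open Set Filter Topology MeasureTheory

variable {d : ℕ}

/-- reaction vector -/
def rvec (r : (Fin d → ℕ) × (Fin d → ℕ)) : Fin d → ℝ := fun i => (r.2 i : ℝ) - (r.1 i : ℝ)

lemma massAction_eq (R : Finset ((Fin d → ℕ) × (Fin d → ℕ)))
    (k : (Fin d → ℕ) × (Fin d → ℕ) → ℝ) (x : Fin d → ℝ) :
    massAction R k x = ∑ r ∈ R, (k r * mono x r.1) • rvec r := by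
  funext i
  rw [Finset.sum_apply]
  rfl

lemma massAction_mem (R : Finset ((Fin d → ℕ) × (Fin d → ℕ)))
    (k : (Fin d → ℕ) × (Fin d → ℕ) → ℝ) (x : Fin d → ℝ) :
    massAction R k x ∈ stoichSubspace R := by
  rw [massAction_eq]
  exact Submodule.sum_mem _ (fun r hr => Submodule.smul_mem _ _
    (Submodule.subset_span ⟨r, hr, rfl⟩))

lemma contDiff_mono (y : Fin d → ℕ) : ContDiff ℝ 1 (fun x : Fin d → ℝ => mono x y) := by
  unfold mono
  exact contDiff_prod (fun j _ => (contDiff_apply ℝ ℝ j).pow _)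

lemma continuous_massAction (R : Finset ((Fin d → ℕ) × (Fin d → ℕ)))
    (k : (Fin d → ℕ) × (Fin d → ℕ) → ℝ) : Continuous (massAction R k) := by
  have : massAction R k = fun x => ∑ r ∈ R, (k r * mono x r.1) • rvec r :=
    funext (massAction_eq R k)
  rw [this]
  exact continuous_finsetSum _ (fun r _ =>
    (continuous_const.mul (contDiff_mono r.1).continuous).smul continuous_const)

lemma lip_box (R : Finset ((Fin d → ℕ) × (Fin d → ℕ))) {ε : ℝ} (hε : 0 < ε) (lo hi : Fin d → ℝ) :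
    ∃ L B : ℝ, 0 < L ∧ ∀ k : (Fin d → ℕ) × (Fin d → ℕ) → ℝ, (∀ r ∈ R, ε ≤ k r ∧ k r ≤ ε⁻¹) →
      (∀ x ∈ Icc lo hi, ‖massAction R k x‖ ≤ B) ∧
      ∀ x ∈ Icc lo hi, ∀ y ∈ Icc lo hi, ‖massAction R k x - massAction R k y‖ ≤ L * ‖x - y‖ := by
  have h1 : ∀ y : Fin d → ℕ, ∃ K : NNReal,
      LipschitzOnWith K (fun x : Fin d → ℝ => mono x y) (Icc lo hi) := fun y =>
    (contDiff_mono y).contDiffOn.exists_lipschitzOnWith one_ne_zero (convex_Icc lo hi) isCompact_Icc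
  have h2 : ∀ y : Fin d → ℕ, ∃ b : ℝ, ∀ x ∈ Icc lo hi, ‖mono x y‖ ≤ b := fun y =>
    isCompact_Icc.exists_bound_of_continuousOn (contDiff_mono y).continuous.continuousOn
  choose K hK using h1
  choose b hb using h2
  have hεi : 0 < ε⁻¹ := inv_pos.2 hε
  refine ⟨∑ r ∈ R, ε⁻¹ * K r.1 * ‖rvec r‖ + 1, ∑ r ∈ R, ε⁻¹ * b r.1 * ‖rvec r‖, ?_,
    fun k hk => ⟨fun x hx => ?_, fun x hx y hy => ?_⟩⟩
  · have : 0 ≤ ∑ r ∈ R, ε⁻¹ * K r.1 * ‖rvec r‖ :=
      Finset.sum_nonneg (fun r _ => by positivity)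
    linarith
  · rw [massAction_eq]
    refine le_trans (norm_sum_le _ _) (Finset.sum_le_sum (fun r hr => ?_))
    rw [norm_smul, norm_mul, Real.norm_eq_abs, abs_of_pos (lt_of_lt_of_le hε (hk r hr).1)]
    exact mul_le_mul_of_nonneg_right
      (mul_le_mul (hk r hr).2 (hb _ x hx) (norm_nonneg _) hεi.le) (norm_nonneg _)
  · rw [massAction_eq, massAction_eq, ← Finset.sum_sub_distrib]
    have h3 : ∑ r ∈ R, ‖(k r * mono x r.1) • rvec r - (k r * mono y r.1) • rvec r‖ ≤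
        ∑ r ∈ R, ε⁻¹ * K r.1 * ‖rvec r‖ * ‖x - y‖ := by
      refine Finset.sum_le_sum (fun r hr => ?_)
      rw [← sub_smul, ← mul_sub, norm_smul, norm_mul, Real.norm_eq_abs,
        abs_of_pos (lt_of_lt_of_le hε (hk r hr).1)]
      have h4 := (hK r.1).dist_le_mul x hx y hy
      rw [dist_eq_norm, dist_eq_norm] at h4
      calc k r * ‖mono x r.1 - mono y r.1‖ * ‖rvec r‖
          ≤ ε⁻¹ * (K r.1 * ‖x - y‖) * ‖rvec r‖ := mul_le_mul_of_nonneg_right
            (mul_le_mul (hk r hr).2 h4 (norm_nonneg _) hεi.le) (norm_nonneg _)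
        _ = _ := by ring
    rw [← Finset.sum_mul] at h3
    have h5 := norm_sum_le R (fun r => (k r * mono x r.1) • rvec r - (k r * mono y r.1) • rvec r)
    nlinarith [norm_nonneg (x - y)]

/-- pairing with a fixed vector -/
noncomputable def pairing (w : Fin d → ℝ) : (Fin d → ℝ) →L[ℝ] ℝ :=
  ∑ i, w i • ContinuousLinearMap.proj i

lemma pairing_apply (w v : Fin d → ℝ) : pairing w v = ∑ i, w i * v i := by
  simp [pairing]

lemma traj_of_eq {R : Finset ((Fin d → ℕ) × (Fin d → ℕ))} {ε b : ℝ}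
    {κ : ℝ → (Fin d → ℕ) × (Fin d → ℕ) → ℝ}
    (hκ : ∀ t, 0 ≤ t → ∀ r ∈ R, ε ≤ κ t r ∧ κ t r ≤ ε⁻¹) {x f : ℝ → Fin d → ℝ}
    (hc : ContinuousOn x (Icc 0 b)) (hpos : ∀ t ∈ Icc 0 b, ∀ i, 0 < x t i)
    (hf : ∀ t ∈ Icc 0 b, IntervalIntegrable f volume 0 t ∧ x t = x 0 + ∫ s in (0 : ℝ)..t, f s)
    (he : ∀ u ∈ Icc 0 b, f u = massAction R (κ u) (x u)) : Traj R ε x 0 b := by
  refine ⟨hc, hpos, fun s t h1 h2 h3 w c H => ?_⟩
  have hs := hf s ⟨h1, le_trans h2 h3⟩
  have ht := hf t ⟨le_trans h1 h2, h3⟩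
  have hst : IntervalIntegrable f volume s t := hs.1.symm.trans ht.1
  have h4 : x t - x s = ∫ u in s..t, f u := by
    rw [← intervalIntegral.integral_interval_sub_left ht.1 hs.1, ht.2, hs.2]; abel
  have h5 : ∑ i, w i * (x t i - x s i) = ∫ u in s..t, pairing w (f u) := by
    rw [ContinuousLinearMap.intervalIntegral_comp_comm _ hst, ← h4, pairing_apply]
    rfl
  rw [h5]
  have h6 := intervalIntegral.integral_mono_on (f := fun u => pairing w (f u)) (g := fun _ => -c)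
    h2 ⟨(pairing w).integrable_comp hst.1, (pairing w).integrable_comp hst.2⟩
    intervalIntegrable_const (fun u hu => by
      have hu' : u ∈ Icc 0 b := ⟨le_trans h1 hu.1, le_trans hu.2 h3⟩
      rw [pairing_apply, he u hu']
      exact H u hu _ (hκ u hu'.1))
  rw [intervalIntegral.integral_const, smul_eq_mul] at h6
  linarith

lemma integral_mem_stoich {R : Finset ((Fin d → ℕ) × (Fin d → ℕ))} {f : ℝ → Fin d → ℝ} {t : ℝ}
    (hi : IntervalIntegrable f volume 0 t) (hf : ∀ s, f s ∈ stoichSubspace R) :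
    ∫ s in (0 : ℝ)..t, f s ∈ stoichSubspace R := by
  rw [← Subspace.forall_mem_dualAnnihilator_apply_eq_zero_iff]
  intro φ hφ
  have h1 := ContinuousLinearMap.intervalIntegral_comp_comm (LinearMap.toContinuousLinearMap φ) hi
  have h2 : ∀ s, LinearMap.toContinuousLinearMap φ (f s) = 0 :=
    fun s => (Submodule.mem_dualAnnihilator φ).1 hφ _ (hf s)
  simp only [h2, intervalIntegral.integral_zero] at h1
  exact h1.symm

/-- a priori box for solutions starting at a given positive point -/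
lemma exists_box {R : Finset ((Fin d → ℕ) × (Fin d → ℕ))} (hR : WeaklyReversible R) {ε : ℝ}
    (hε : 0 < ε) {x0 : Fin d → ℝ} (h0 : ∀ i, 0 < x0 i) :
    ∃ m M : ℝ, 0 < m ∧ x0 ∈ Icc (fun _ => m) (fun _ => M) ∧
      ∀ (κ : ℝ → (Fin d → ℕ) × (Fin d → ℕ) → ℝ),
      (∀ t, 0 ≤ t → ∀ r ∈ R, ε ≤ κ t r ∧ κ t r ≤ ε⁻¹) → ∀ (x f : ℝ → Fin d → ℝ) (T : ℝ),
      x 0 = x0 → ContinuousOn x (Icc 0 T) →
      (∀ t ∈ Icc 0 T, IntervalIntegrable f volume 0 t ∧ x t = x 0 + ∫ s in (0 : ℝ)..t, f s) →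
      (∀ u ∈ Icc 0 T, (∀ i, m / 2 < x u i ∧ x u i < M + 1) → f u = massAction R (κ u) (x u)) →
      ∀ u ∈ Icc 0 T, x u ∈ Icc (fun _ => m) (fun _ => M) := by
  obtain ⟨m0, hm0, hm0x⟩ := exists_pos_lb Finset.univ x0
  obtain ⟨M0, _, hM0x⟩ := exists_ub Finset.univ x0
  obtain ⟨m1, M1, hm1, hbox⟩ := apriori hR hε hm0 M0
  have hm : 0 < min m0 m1 := lt_min hm0 hm1
  have hx0 : x0 ∈ Icc (fun _ => min m0 m1) (fun _ => max M0 M1) :=
    ⟨fun i => le_trans (min_le_left _ _) (hm0x i (Finset.mem_univ i) (h0 i)),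
      fun i => le_trans (hM0x i (Finset.mem_univ i)) (le_max_left _ _)⟩
  refine ⟨min m0 m1, max M0 M1, hm, hx0, fun κ hκ x f T hx hc hf he => ?_⟩
  have hU : IsOpen {y : Fin d → ℝ | ∀ i, min m0 m1 / 2 < y i ∧ y i < max M0 M1 + 1} := by
    rw [Set.ofPred_forall]
    exact isOpen_iInter_of_finite (fun i =>
      (isOpen_lt continuous_const (continuous_apply i)).inter
        (isOpen_lt (continuous_apply i) continuous_const))
  have hKU : Icc (fun _ => min m0 m1) (fun _ => max M0 M1) ⊆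
      {y : Fin d → ℝ | ∀ i, min m0 m1 / 2 < y i ∧ y i < max M0 M1 + 1} := by
    intro y hy i
    have h1 := hy.1 i
    have h2 := hy.2 i
    simp only at h1 h2
    constructor <;> linarith
  refine stay hU isClosed_Icc hKU hc (hKU (by rw [hx]; exact hx0)) (fun b hb hin => ?_)
  have hsub : Icc 0 b ⊆ Icc 0 T := Icc_subset_Icc le_rfl hb.2
  have hT : Traj R ε x 0 b := traj_of_eq hκ (hc.mono hsub)
    (fun t ht i => by have := (hin t ht i).1; linarith) (fun t ht => hf t (hsub ht))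
    (fun u hu => he u (hsub hu) (hin u hu))
  have h3 := hbox x 0 b hT (fun i => by
    rw [hx]; exact ⟨hm0x i (Finset.mem_univ i) (h0 i), hM0x i (Finset.mem_univ i)⟩)
    b ⟨hb.1, le_rfl⟩
  exact ⟨fun i => le_trans (min_le_right _ _) (h3 i).1,
    fun i => le_trans (h3 i).2 (le_max_right _ _)⟩

lemma exists_solution {R : Finset ((Fin d → ℕ) × (Fin d → ℕ))} (hR : WeaklyReversible R) {ε : ℝ}
    (hε : 0 < ε) {κ : ℝ → (Fin d → ℕ) × (Fin d → ℕ) → ℝ}
    (hmeas : ∀ r ∈ R, Measurable (fun t => κ t r))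
    (hκ : ∀ t, 0 ≤ t → ∀ r ∈ R, ε ≤ κ t r ∧ κ t r ≤ ε⁻¹) {x0 : Fin d → ℝ} (h0 : ∀ i, 0 < x0 i) :
    ∃ x, x 0 = x0 ∧ IsIntegralSolution (fun t => massAction R (κ t)) x (Ici 0) := by
  obtain ⟨m, M, hm, hx0, hbox⟩ := exists_box hR hε h0
  obtain ⟨L, B, hL, hLB⟩ := lip_box R hε (fun _ => m / 2) (fun _ => max (M + 1) (m / 2))
  set cl : (Fin d → ℝ) → Fin d → ℝ := fun y i => max (m / 2) (min (M + 1) (y i)) with hcl
  have hclc : Continuous cl := by rw [hcl]; fun_prop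
  have hclm : ∀ y, cl y ∈ Icc (fun _ => m / 2) (fun _ => max (M + 1) (m / 2)) := fun y =>
    ⟨fun i => le_max_left _ _, fun i => max_le (le_max_right _ _)
      (le_trans (min_le_left _ _) (le_max_left _ _))⟩
  have hcll : ∀ y z, ‖cl y - cl z‖ ≤ ‖y - z‖ := by
    intro y z
    rw [pi_norm_le_iff_of_nonneg (norm_nonneg _)]
    intro i
    have h1 := norm_le_pi_norm (y - z) i
    refine le_trans ?_ h1
    simp only [Pi.sub_apply, Real.norm_eq_abs, hcl]
    refine le_trans (abs_max_sub_max_le_max _ _ _ _) (max_le (by simp) ?_)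
    exact le_trans (abs_min_sub_min_le_max _ _ _ _) (max_le (by simp) le_rfl)
  have hcle : ∀ y, (∀ i, m / 2 < y i ∧ y i < M + 1) → cl y = y := by
    intro y hy
    funext i
    simp only [hcl]
    rw [min_eq_right (hy i).2.le, max_eq_right (hy i).1.le]
  obtain ⟨x, hxc, hxi, hxe⟩ := exists_global
    (G := fun t y => massAction R (κ (max t 0)) (cl y)) (L := L) (B := B) hL
    (fun z hz => by
      apply Measurable.aestronglyMeasurable
      simp only [massAction_eq]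
      refine Finset.measurable_sum _ (fun r hr => Measurable.smul_const (Measurable.mul ?_ ?_) _)
      · exact (hmeas r hr).comp (by fun_prop)
      · exact ((contDiff_mono r.1).continuous.comp (hclc.comp hz)).measurable)
    (fun t y => (hLB _ (hκ _ (le_max_right _ _))).1 _ (hclm y))
    (fun t y z => le_trans ((hLB _ (hκ _ (le_max_right _ _))).2 _ (hclm y) _ (hclm z))
      (mul_le_mul_of_nonneg_left (hcll y z) hL.le)) x0
  have hx0' : x 0 = x0 := by simpa using hxe 0 le_rfl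
  have hin : ∀ T, ∀ u ∈ Icc 0 T, x u ∈ Icc (fun _ => m) (fun _ => M) := fun T =>
    hbox κ hκ x (fun s => massAction R (κ (max s 0)) (cl (x s))) T hx0' hxc.continuousOn
      (fun t ht => ⟨hxi 0 t, by rw [hx0']; exact hxe t ht.1⟩)
      (fun u hu hy => by simp only [max_eq_left hu.1, hcle _ hy])
  have heq : ∀ s, 0 ≤ s → massAction R (κ (max s 0)) (cl (x s)) = massAction R (κ s) (x s) := by
    intro s hs
    have h1 := hin s s ⟨hs, le_rfl⟩
    rw [max_eq_left hs, hcle _ (fun i => by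
      have h2 := h1.1 i
      have h3 := h1.2 i
      simp only at h2 h3
      constructor <;> linarith)]
  refine ⟨x, hx0', hxc.continuousOn, fun t ht => ?_⟩
  have hcongr : EqOn (fun s => massAction R (κ (max s 0)) (cl (x s)))
      (fun s => massAction R (κ s) (x s)) (uIcc 0 t) := by
    intro s hs
    rw [uIcc_of_le ht] at hs
    exact heq s hs.1
  refine ⟨(hxi 0 t).congr (hcongr.mono uIoc_subset_uIcc), ?_⟩
  rw [← intervalIntegral.integral_congr hcongr, hx0']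
  exact hxe t ht

theorem permanent_variable {R : Finset ((Fin d → ℕ) × (Fin d → ℕ))} (hR : WeaklyReversible R)
    {c : Fin d → ℝ} (hc : ∀ i, 0 < c i) {ε : ℝ} (hε : 0 < ε) :
    ∃ K : Set (Fin d → ℝ), IsCompact K ∧ K ⊆ posClass R c ∧
      ∀ κ : ℝ → (Fin d → ℕ) × (Fin d → ℕ) → ℝ, (∀ r ∈ R, Measurable (fun t => κ t r)) →
        (∀ t, 0 ≤ t → ∀ r ∈ R, ε ≤ κ t r ∧ κ t r ≤ ε⁻¹) →
        PermanentWith (IsIntegralSolution (fun t => massAction R (κ t))) (posClass R c) K := by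
  obtain ⟨m0, M0, hm0, habs⟩ := absorb hR hε hc
  obtain ⟨m1, M1, hm1, hbox⟩ := apriori hR hε hm0 M0
  have hScl : IsClosed {y : Fin d → ℝ | y - c ∈ stoichSubspace R} :=
    (Submodule.closed_of_finiteDimensional (stoichSubspace R)).preimage
      (f := fun y => y - c) (by fun_prop)
  refine ⟨Icc (fun _ => m1) (fun _ => M1) ∩ {y | y - c ∈ stoichSubspace R},
    isCompact_Icc.inter_right hScl,
    fun y hy => ⟨hy.2, fun i => lt_of_lt_of_le hm1 (hy.1.1 i)⟩, fun κ hmeas hκ => ?_⟩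
  refine ⟨fun x0 hx0 => exists_solution hR hε hmeas hκ hx0.2, fun T hT x hx0 hx => ?_,
    fun x hx0 hx => ?_⟩
  · obtain ⟨z, hz0, hz⟩ := exists_solution hR hε hmeas hκ hx0.2
    refine ⟨z, hz, fun t ht => ?_⟩
    obtain ⟨m, M, hm, _, hb⟩ := exists_box hR hε hx0.2
    obtain ⟨L, B, hL, hLB⟩ := lip_box R hε (fun _ => m) (fun _ => M)
    have hsub1 : Icc 0 t ⊆ Ico 0 T := fun s hs => ⟨hs.1, lt_of_le_of_lt hs.2 ht.2⟩
    have hsub2 : Icc 0 t ⊆ Ici 0 := fun s hs => hs.1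
    have h1 := hb κ hκ x _ t rfl (hx.1.mono hsub1) (fun s hs => hx.2 s (hsub1 hs))
      (fun _ _ _ => rfl)
    have h2 := hb κ hκ z _ t hz0 (hz.1.mono hsub2) (fun s hs => hz.2 s (hsub2 hs))
      (fun _ _ _ => rfl)
    exact unique_int hL ht.1 (hz.1.mono hsub2) (hx.1.mono hsub1) (fun s hs => hz.2 s (hsub2 hs))
      (fun s hs => hx.2 s (hsub1 hs)) hz0
      (fun s hs => (hLB _ (hκ s hs.1)).2 _ (h2 s hs) _ (h1 s hs)) t ⟨ht.1, le_rfl⟩
  · obtain ⟨m, M, hm, _, hb⟩ := exists_box hR hε hx0.2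
    have hpos : ∀ t, 0 ≤ t → ∀ i, 0 < x t i := fun t ht i =>
      lt_of_lt_of_le hm ((hb κ hκ x _ t rfl (hx.1.mono (fun s hs => hs.1))
        (fun s hs => hx.2 s hs.1) (fun _ _ _ => rfl) t ⟨ht, le_rfl⟩).1 i)
    have hS : ∀ t, 0 ≤ t → x t - c ∈ stoichSubspace R := by
      intro t ht
      have h1 := integral_mem_stoich (hx.2 t ht).1 (fun s => massAction_mem R _ _)
      have h2 : x t - c = (x 0 - c) + ∫ s in (0 : ℝ)..t, massAction R (κ s) (x s) := by
        rw [(hx.2 t ht).2]; abel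
      rw [h2]
      exact Submodule.add_mem _ hx0.1 h1
    have hT : ∀ b, 0 ≤ b → Traj R ε x 0 b := fun b _ =>
      traj_of_eq hκ (hx.1.mono (fun s hs => hs.1)) (fun t ht => hpos t ht.1)
        (fun s hs => hx.2 s hs.1) (fun _ _ => rfl)
    refine ⟨fun t ht => ⟨hS t ht, hpos t ht⟩, ?_⟩
    obtain ⟨t0, ht0, hin⟩ := habs x hT hS
    filter_upwards [eventually_ge_atTop t0] with t ht
    have h3 := hbox x t0 t ((hT t (le_trans ht0 ht)).mono ht0 le_rfl) hin t ⟨ht, le_rfl⟩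
    exact ⟨⟨fun i => (h3 i).1, fun i => (h3 i).2⟩, hS t (le_trans ht0 ht)⟩

lemma integral_of_classical {f : (Fin d → ℝ) → (Fin d → ℝ)} (hf : Continuous f)
    {x : ℝ → Fin d → ℝ} {I : Set ℝ} (hI : ∀ t ∈ I, 0 ≤ t ∧ Icc 0 t ⊆ I)
    (hx : IsSolution f x I) : IsIntegralSolution (fun _ => f) x I := by
  have hc : ContinuousOn x I := fun t ht => (hx t ht).continuousWithinAt
  refine ⟨hc, fun t ht => ?_⟩
  obtain ⟨h0, hsub⟩ := hI t ht
  have hi : IntervalIntegrable (fun s => f (x s)) volume 0 t := by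
    apply ContinuousOn.intervalIntegrable
    rw [uIcc_of_le h0]
    exact hf.comp_continuousOn (hc.mono hsub)
  refine ⟨hi, ?_⟩
  rw [intervalIntegral.integral_eq_sub_of_hasDeriv_right_of_le h0 (hc.mono hsub)
    (fun s hs => ?_) hi]
  · abel
  · have h1 : I ∈ 𝓝 s := mem_of_superset (Icc_mem_nhds hs.1 hs.2) hsub
    exact ((hx s (hsub ⟨hs.1.le, hs.2.le⟩)).hasDerivAt h1).hasDerivWithinAt

lemma classical_of_integral {f : (Fin d → ℝ) → (Fin d → ℝ)} (hf : Continuous f)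
    {x : ℝ → Fin d → ℝ} (hx : IsIntegralSolution (fun _ => f) x (Ici 0)) :
    IsSolution f x (Ici 0) := by
  intro t ht
  have hg : Continuous (fun s : ℝ => f (x (max s 0))) :=
    hf.comp (hx.1.comp_continuous (by fun_prop) (fun s => mem_Ici.2 (le_max_right _ _)))
  have h1 := ((hg.integral_hasStrictDerivAt 0 t).hasDerivAt.const_add (x 0)).hasDerivWithinAt
    (s := Ici 0)
  rw [max_eq_left ht] at h1
  have h2 : ∀ u ∈ Ici (0 : ℝ), x u = x 0 + ∫ s in (0 : ℝ)..u, f (x (max s 0)) := by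
    intro u hu
    rw [intervalIntegral.integral_congr (g := fun s => f (x s)) (fun s hs => by
      rw [uIcc_of_le hu] at hs
      simp only [max_eq_left hs.1])]
    exact (hx.2 u hu).2
  exact h1.congr h2 (h2 t ht)

theorem permanent_const {R : Finset ((Fin d → ℕ) × (Fin d → ℕ))} (hR : WeaklyReversible R)
    {c : Fin d → ℝ} (hc : ∀ i, 0 < c i) {k : (Fin d → ℕ) × (Fin d → ℕ) → ℝ}
    (hk : ∀ r ∈ R, 0 < k r) :
    ∃ K : Set (Fin d → ℝ), IsCompact K ∧ K ⊆ posClass R c ∧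
      PermanentWith (IsSolution (massAction R k)) (posClass R c) K := by
  obtain ⟨e1, he1, h1⟩ := exists_pos_lb R k
  obtain ⟨e2, he2, h2⟩ := exists_pos_lb R (fun r => (k r)⁻¹)
  have hε : 0 < min e1 e2 := lt_min he1 he2
  obtain ⟨K, hK1, hK2, hK3⟩ := permanent_variable hR hc hε
  obtain ⟨p1, p2, p3⟩ := hK3 (fun _ => k) (fun _ _ => measurable_const) (fun _ _ r hr =>
    ⟨le_trans (min_le_left _ _) (h1 r hr (hk r hr)), by
      rw [le_inv_comm₀ (hk r hr) hε]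
      exact le_trans (min_le_right _ _) (h2 r hr (inv_pos.2 (hk r hr)))⟩)
  have hf := continuous_massAction R k
  refine ⟨K, hK1, hK2, fun x0 hx0 => ?_, fun T hT x hx0 hx => ?_, fun x hx0 hx => ?_⟩
  · obtain ⟨x, h3, h4⟩ := p1 x0 hx0
    exact ⟨x, h3, classical_of_integral hf h4⟩
  · obtain ⟨z, h3, h4⟩ := p2 T hT x hx0 (integral_of_classical hf
      (fun t ht => ⟨ht.1, fun s hs => ⟨hs.1, lt_of_le_of_lt hs.2 ht.2⟩⟩) hx)
    exact ⟨z, classical_of_integral hf h3, h4⟩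
  · exact p3 x hx0 (integral_of_classical hf (fun t ht => ⟨ht, fun s hs => hs.1⟩) hx)

end Vale.Agent.P072
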