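import Vale.Agent.P072.Chains

/-! Local modifications of admissible chains and the offset estimates. -/

namespace Vale.Agent.P072

open Finset Real

namespace Sys

variable {S : Sys}

lemma round {t : ℕ → ℝ} {j : ℕ} (H : S.Adm t j) (hj : j < S.n) (s : ℝ) :
    ∃ v, s - 2 * S.G t j ≤ v ∧ v ≤ s ∧ ∀ l ∈ S.L j, S.G t j ≤ |v - l t| := by
  have hG := one_le_G (S := S) t j
  by_cases h : ∀ l ∈ S.L j, S.G t j ≤ |s - l t|
  · exact ⟨s, by linarith, le_rfl, h⟩
  · push Not at h
    obtain ⟨q, hq, hs⟩ := h
    rw [abs_lt] at hs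
    refine ⟨q t - S.G t j, by linarith [hs.2], by linarith [hs.1], fun l hl => ?_⟩
    rcases sep_level H hj q hq l hl with e | e
    · rw [← e, le_abs]; right; linarith
    · rw [le_abs] at e ⊢
      rcases e with e | e
      · left; linarith
      · right; linarith

lemma update_lt (t : ℕ → ℝ) (j : ℕ) (v : ℝ) : ∀ i < j, Function.update t j v i = t i :=
  fun _ hi => Function.update_of_ne hi.ne _ _

lemma G_update (t : ℕ → ℝ) (j : ℕ) (v : ℝ) : S.G (Function.update t j v) j = S.G t j :=
  G_congr (update_lt t j v)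

lemma Adm_update {t : ℕ → ℝ} {j : ℕ} (H : S.Adm t j) {v : ℝ}
    (hv : (∃ l ∈ S.L j, v = l t) ∨ ∀ l ∈ S.L j, S.G t j ≤ |v - l t|)
    (hord : ∀ i, j = i + 1 → v ≤ t i) : S.Adm (Function.update t j v) (j + 1) := by
  have key : ∀ l ∈ S.L j, l (Function.update t j v) = l t :=
    fun l hl => S.dep j l hl _ _ (update_lt t j v)
  intro a ha
  rcases Nat.lt_or_ge a j with h | h
  · exact Adm_congr (fun i hi => (update_lt t j v i hi).symm) H a h
  · have e : a = j := by omega
    subst e
    refine ⟨?_, fun i hi => ?_⟩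
    · rcases hv with ⟨l, hl, e⟩ | hv
      · left
        exact ⟨l, hl, by rw [Function.update_self, key l hl, e]⟩
      · right
        intro l hl
        rw [G_update, Function.update_self, key l hl]
        exact hv l hl
    · rw [Function.update_self, update_lt t a v i (by omega)]
      exact hord i hi

lemma complete {t : ℕ → ℝ} {k : ℕ} (H : S.Adm t k) (hk : k ≤ S.n) (s : ℕ → ℝ)
    (hs : ∀ i, i + 1 < S.n → s (i + 1) ≤ s i)
    (h0 : ∀ i, k = i + 1 → k < S.n → s k - 2 * k * S.T ≤ t i) :
    ∃ t', S.Adm t' S.n ∧ (∀ i < k, t' i = t i) ∧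
      ∀ l, k ≤ l → l < S.n → s l - 2 * (l + 1) * S.T ≤ t' l ∧ t' l ≤ s l := by
  have hT := @one_le_T S
  have main : ∀ m, k ≤ m → m ≤ S.n → ∃ t', S.Adm t' m ∧ (∀ i < k, t' i = t i) ∧
      (∀ l, k ≤ l → l < m → s l - 2 * (l + 1) * S.T ≤ t' l ∧ t' l ≤ s l) ∧
      (∀ i, m = i + 1 → m < S.n → s m - 2 * m * S.T ≤ t' i) := by
    intro m hkm
    induction m, hkm using Nat.le_induction with
    | base => intro _; exact ⟨t, H, fun _ _ => rfl, fun l h1 h2 => by omega, h0⟩
    | succ m hkm ih =>
      intro hm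
      obtain ⟨u, hu, hagree, hb, hnext⟩ := ih (by omega)
      have hmn : m < S.n := by omega
      have hGT := G_le_T (S := S) u hmn.le
      have hm0 : (0 : ℝ) ≤ m := Nat.cast_nonneg m
      obtain ⟨z, hz1, hz2, hz3⟩ : ∃ z, s m - 2 * m * S.T ≤ z ∧ z ≤ s m ∧
          ∀ i, m = i + 1 → z ≤ u i := by
        rcases m with _ | m'
        · exact ⟨s 0, by simp, le_rfl, fun i hi => by omega⟩
        · refine ⟨min (s (m' + 1)) (u m'), le_min (by nlinarith) (hnext m' rfl hmn),
            min_le_left _ _, fun i hi => ?_⟩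
          have : i = m' := by omega
          rw [this]; exact min_le_right _ _
      obtain ⟨v, hv1, hv2, hv3⟩ := round hu hmn z
      have hvlow : s m - 2 * (m + 1) * S.T ≤ v := by nlinarith
      refine ⟨Function.update u m v, Adm_update hu (Or.inr hv3)
        (fun i hi => le_trans hv2 (hz3 i hi)), fun i hi => ?_, fun l h1 h2 => ?_, fun i hi h2 => ?_⟩
      · rw [update_lt u m v i (by omega)]; exact hagree i hi
      · rcases Nat.lt_or_ge l m with h | h
        · rw [update_lt u m v l h]; exact hb l h1 h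
        · have e : l = m := by omega
          subst e
          rw [Function.update_self]
          exact ⟨hvlow, le_trans hv2 hz2⟩
      · have e : i = m := by omega
        subst e
        rw [Function.update_self]
        have := hs i h2
        push_cast
        linarith
  obtain ⟨t', h1, h2, h3, _⟩ := main S.n hk le_rfl
  exact ⟨t', h1, h2, h3⟩

/-- tie all later levels to level `k` -/
lemma tie_ext {t : ℕ → ℝ} {k : ℕ} (H : S.Adm t (k + 1)) :
    S.Adm (fun i => t (min i k)) S.n ∧ ∀ j, k < j → j < S.n → S.sp (fun i => t (min i k)) j := by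
  have hsp : ∀ j, k < j → j < S.n → S.sp (fun i => t (min i k)) j := by
    intro j h1 h2
    obtain ⟨m, rfl⟩ : ∃ m, j = m + 1 := ⟨j - 1, by omega⟩
    refine ⟨_, S.tie m h2, ?_⟩
    show t (min (m + 1) k) = t (min m k)
    rw [min_eq_right (by omega), min_eq_right (by omega)]
  refine ⟨fun j hj => ?_, hsp⟩
  rcases Nat.lt_or_ge k j with h | h
  · refine ⟨Or.inl (hsp j h hj), fun i hi => ?_⟩
    show t (min j k) ≤ t (min i k)
    rw [min_eq_right (by omega), min_eq_right (by omega)]
  · have : S.Adm (fun i => t (min i k)) (k + 1) :=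
      Adm_congr (fun i hi => by show t i = t (min i k); rw [min_eq_left (by omega)]) H
    exact this j (by omega)

/-- the upward move at the leader of a block -/
lemma up_move {t : ℕ → ℝ} (H : S.Adm t S.n) {k : ℕ} (hk : k < S.n)
    (hlead : ∀ i, k = i + 1 → t k < t i) :
    ∃ u, S.Adm u S.n ∧ (∀ i < k, u i = t i) ∧ t k + 1 ≤ u k ∧ (∀ j, k ≤ j → u j = u k) ∧
      ∀ j, k ≤ j → j < S.n → u j - S.γ u j ≤ t k + S.Lo t + 1 := by
  have Hk : S.Adm t k := H.mono hk.le
  have hG := one_le_G (S := S) t k
  have hLo : 1 ≤ S.Lo t := le_trans S.hT0 (Lo_ge_T0 t)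
  -- choose the new value
  have hv : ∃ v, t k + 1 ≤ v ∧
      ((∃ l ∈ S.L k, v = l t) ∨ ∀ l ∈ S.L k, S.G t k ≤ |v - l t|) ∧
      (∀ i, k = i + 1 → v ≤ t i) ∧
      (v ≤ t k + S.Lo t + 1 ∨ ((∃ l ∈ S.L k, v = l t) ∧ v - S.G t k ≤ t k + 1)) := by
    by_cases hs : S.sp t k
    · have hGL := G_le_Lo hk hs
      obtain ⟨q, hq, e⟩ := hs
      refine ⟨t k + S.G t k, by linarith, Or.inr (fun l hl => ?_), fun i hi => ?_,
        Or.inl (by linarith)⟩
      · rcases sep_level Hk hk q hq l hl with h | h
        · rw [← h, ← e, le_abs]; left; linarith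
        · rw [← e] at h
          rw [le_abs] at h ⊢
          rcases h with h | h
          · left; linarith
          · right; linarith
      · subst hi
        have hl := hlead i rfl
        rcases sep_level Hk hk q hq _ (S.tie i hk) with h | h
        · rw [← e] at h; exact absurd h hl.ne
        · rw [← e, le_abs] at h
          rcases h with h | h
          · linarith
          · linarith
    · have hg : S.gen t k := ((H k hk).1).resolve_left hs
      have htop : ∀ i, k = i + 1 → t k + S.G t k ≤ t i := by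
        intro i hi
        subst hi
        have h := hg _ (S.tie i hk)
        have hl := hlead i rfl
        rw [le_abs] at h
        rcases h with h | h
        · linarith
        · linarith
      by_cases h1 : ∀ l ∈ S.L k, S.G t k ≤ |t k + 1 - l t|
      · exact ⟨t k + 1, le_rfl, Or.inr h1, fun i hi => by linarith [htop i hi],
          Or.inl (by linarith)⟩
      · push Not at h1
        obtain ⟨q, hq, hs1⟩ := h1
        rw [abs_lt] at hs1
        have h2 := hg q hq
        rw [le_abs] at h2
        have h3 : t k + S.G t k ≤ q t := by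
          rcases h2 with h2 | h2
          · linarith [hs1.2]
          · linarith
        refine ⟨q t, by linarith, Or.inl ⟨q, hq, rfl⟩, fun i hi => ?_,
          Or.inr ⟨⟨q, hq, rfl⟩, by linarith [hs1.1]⟩⟩
        have h4 := htop i hi
        subst hi
        rcases sep_level Hk hk q hq _ (S.tie i hk) with h | h
        · exact h.le
        · rw [le_abs] at h
          rcases h with h | h
          · linarith [hs1.1]
          · linarith
  obtain ⟨v, hv1, hv2, hv3, hv4⟩ := hv
  have hA := Adm_update Hk hv2 hv3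
  obtain ⟨hB, hsp⟩ := tie_ext hA
  set u : ℕ → ℝ := fun i => Function.update t k v (min i k) with hu
  have hlt : ∀ i < k, u i = t i := fun i hi => by
    show Function.update t k v (min i k) = t i
    rw [min_eq_left hi.le, update_lt t k v i hi]
  have hge : ∀ j, k ≤ j → u j = v := fun j hj => by
    show Function.update t k v (min j k) = v
    rw [min_eq_right hj, Function.update_self]
  refine ⟨u, hB, hlt, by rw [hge k le_rfl]; exact hv1,
    fun j hj => by rw [hge j hj, hge k le_rfl], fun j hj hjn => ?_⟩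
  rw [hge j hj]
  rcases hv4 with h | ⟨⟨q, hq, e⟩, h⟩
  · have := γ_nonneg (S := S) u j
    linarith
  · have hspk : S.sp u k := ⟨q, hq, by
      rw [hge k le_rfl, e]; exact (S.dep k q hq _ _ hlt).symm⟩
    have hspj : S.sp u j := by
      rcases Nat.eq_or_lt_of_le hj with e | e
      · rw [← e]; exact hspk
      · exact hsp j e hjn
    have h1 : S.G u k ≤ S.G u j := G_le_G_of_sp hj hspk
    have h2 : S.G u k = S.G t k := G_congr hlt
    have h3 : S.γ u j = S.G u j := by unfold γ; rw [if_pos hspj]
    linarith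

variable (S) in
/-- contribution of one level -/
noncomputable def term (x t : ℕ → ℝ) (j : ℕ) : ℝ := t j * x j - Real.exp (t j - S.γ t j)

variable (S) in
/-- value of a chain -/
noncomputable def val (x t : ℕ → ℝ) : ℝ := ∑ j ∈ range S.n, S.term x t j

lemma exp_ge_tangent {z : ℝ} (hz : 0 < z) (a : ℝ) : z * (1 + a - Real.log z) ≤ Real.exp a := by
  have h := Real.add_one_le_exp (a - Real.log z)
  rw [Real.exp_sub, Real.exp_log hz, le_div_iff₀ hz] at h
  linarith

lemma term_le {x t : ℕ → ℝ} {j : ℕ} (hj : j < S.n) (hx : 0 < x j) :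
    S.term x t j ≤ x j * Real.log (x j) - x j + S.T * x j := by
  unfold term
  have h1 := exp_ge_tangent hx (t j - S.γ t j)
  have h2 := γ_le_T (S := S) t hj
  nlinarith

lemma term_ge {x t : ℕ → ℝ} {j : ℕ} (hj : j < S.n) (hx : 0 < x j)
    (h1 : Real.log (x j) - 2 * (j + 1) * S.T ≤ t j) (h2 : t j ≤ Real.log (x j)) :
    x j * Real.log (x j) - x j - 2 * S.n * S.T * x j ≤ S.term x t j := by
  unfold term
  have h3 : Real.exp (t j - S.γ t j) ≤ x j := by
    have := γ_nonneg (S := S) t j
    calc Real.exp (t j - S.γ t j) ≤ Real.exp (Real.log (x j)) := Real.exp_le_exp.2 (by linarith)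
      _ = x j := Real.exp_log hx
  have h4 : (j : ℝ) + 1 ≤ S.n := by exact_mod_cast hj
  have hT := @one_le_T S
  have h5 : Real.log (x j) - 2 * S.n * S.T ≤ t j := by nlinarith
  nlinarith

lemma term_congr {x t t' : ℕ → ℝ} {j : ℕ} (h : ∀ i ≤ j, t i = t' i) :
    S.term x t j = S.term x t' j := by
  unfold term
  rw [h j le_rfl, γ_congr h]

lemma sum_ge_single {n k : ℕ} (hk : k < n) {f : ℕ → ℝ} {a E : ℝ}
    (h1 : a - E ≤ f k) (h2 : ∀ l < n, -E ≤ f l) : a - n * E ≤ ∑ l ∈ range n, f l := by
  have h3 : ∑ l ∈ range n, ((if l = k then a else 0) - E) ≤ ∑ l ∈ range n, f l := by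
    refine Finset.sum_le_sum (fun l hl => ?_)
    split_ifs with h
    · rw [h]; exact h1
    · have := h2 l (Finset.mem_range.1 hl); linarith
  rw [Finset.sum_sub_distrib, Finset.sum_ite_eq' (range n) k (fun _ => a),
    if_pos (Finset.mem_range.2 hk)] at h3
  simpa using h3

lemma log_step {x : ℕ → ℝ} (hpos : ∀ j < S.n, 0 < x j)
    (hanti : ∀ i j, i ≤ j → j < S.n → x j ≤ x i) :
    ∀ i, i + 1 < S.n → Real.log (x (i + 1)) ≤ Real.log (x i) :=
  fun i hi => Real.log_le_log (hpos _ hi) (hanti i (i + 1) (by omega) hi)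

lemma offset_lower {x t : ℕ → ℝ} (hpos : ∀ j < S.n, 0 < x j)
    (hanti : ∀ i j, i ≤ j → j < S.n → x j ≤ x i) (H : S.Adm t S.n) {η : ℝ}
    (hη : ∀ j < S.n, η ≤ x j / 2) (hmax : ∀ t', S.Adm t' S.n → S.val x t' ≤ S.val x t + η)
    {j : ℕ} (hj : j < S.n) : t j - Real.log (x j) ≤ 2 * S.Lo t := by
  have hLo := Lo_ge_T0 (S := S) t
  have hT0 := S.hT0
  have hT := @one_le_T S
  have hxj := hpos j hj
  rcases le_or_gt (t j) (Real.log (x j)) with h | h
  · linarith
  obtain ⟨t', hA, hagree, hb⟩ := complete (H.mono hj.le) hj.le (fun l => Real.log (x l))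
    (log_step hpos hanti) (fun i hi _ => by
      have h1 : t j ≤ t i := H.anti (by omega) hj
      have h2 : (0 : ℝ) ≤ 2 * j * S.T := by positivity
      linarith)
  have hn0 : (0 : ℝ) ≤ S.n := Nat.cast_nonneg _
  have hsum : (Real.exp (t j - S.γ t j) - (t j - Real.log (x j)) * x j - x j)
      - S.n * ((2 * S.n + 1) * S.T * x j) ≤ ∑ l ∈ range S.n, (S.term x t' l - S.term x t l) := by
    apply sum_ge_single hj
    · have h1 := term_ge hj hxj (hb j le_rfl hj).1 (hb j le_rfl hj).2
      have h2 : S.term x t j = t j * x j - Real.exp (t j - S.γ t j) := rfl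
      nlinarith
    · intro l hl
      rcases Nat.lt_or_ge l j with h1 | h1
      · rw [term_congr (fun i hi => hagree i (by omega))]
        have : 0 ≤ (2 * S.n + 1) * S.T * x j := by positivity
        linarith
      · have h2 := term_ge hl (hpos l hl) (hb l h1 hl).1 (hb l h1 hl).2
        have h3 := term_le (t := t) hl (hpos l hl)
        have h4 := hanti j l h1 hl
        have h5 : (2 * S.n + 1) * S.T * x l ≤ (2 * S.n + 1) * S.T * x j :=
          mul_le_mul_of_nonneg_left h4 (by positivity)
        nlinarith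
  rw [Finset.sum_sub_distrib] at hsum
  have hm := hmax t' hA
  unfold val at hm
  have hη' := hη j hj
  have hγ := γ_le_Lo (S := S) t hj
  have hγT := γ_le_T (S := S) t hj
  set u := t j - S.γ t j - Real.log (x j) with hu
  have he : Real.exp (t j - S.γ t j) = x j * Real.exp u := by
    rw [hu, Real.exp_sub (t j - S.γ t j), Real.exp_log hxj]; field_simp
  have h6 : x j * Real.exp u ≤ x j * (u + S.T + 3 / 2 + S.n * ((2 * S.n + 1) * S.T)) := by
    have : (t j - Real.log (x j)) * x j ≤ (u + S.T) * x j :=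
      mul_le_mul_of_nonneg_right (by linarith) hxj.le
    nlinarith
  have h7 := le_of_mul_le_mul_left h6 hxj
  have h8 : 2 * u ≤ Real.exp u := by
    have h9 := Real.add_one_le_exp (u - 1)
    have h10 : Real.exp u = Real.exp (u - 1) * Real.exp 1 := by rw [← Real.exp_add]; ring_nf
    have h11 : 2 ≤ Real.exp 1 := by have := Real.add_one_le_exp 1; linarith
    have h12 := Real.exp_pos (u - 1)
    nlinarith
  have h13 := S.hexp
  have h14 : Real.exp u ≤ Real.exp S.T0 := by
    have e : S.T0 * S.K ^ 2 ^ (S.n + 1) = S.T := rfl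
    rw [e] at h13
    nlinarith
  have h15 := Real.exp_le_exp.1 h14
  linarith

lemma offset_upper {x t : ℕ → ℝ} (hpos : ∀ j < S.n, 0 < x j)
    (hanti : ∀ i j, i ≤ j → j < S.n → x j ≤ x i) (H : S.Adm t S.n) {η : ℝ}
    (hη : ∀ j < S.n, η ≤ x j / 2) (hmax : ∀ t', S.Adm t' S.n → S.val x t' ≤ S.val x t + η)
    {j : ℕ} (hj : j < S.n) : Real.log (x j) - t j ≤ 2 * S.Lo t := by
  classical
  have hLo := Lo_ge_T0 (S := S) t
  have hT0 := S.hT0
  have hT := @one_le_T S
  have hn0 : (0 : ℝ) ≤ S.n := Nat.cast_nonneg _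
  -- leader of the block
  have hex : ∃ k, t k = t j := ⟨j, rfl⟩
  set k := Nat.find hex with hkdef
  have hkt : t k = t j := Nat.find_spec hex
  have hkj : k ≤ j := Nat.find_min' hex rfl
  have hk : k < S.n := by omega
  have hlead : ∀ i, k = i + 1 → t k < t i := by
    intro i hi
    have h1 : t k ≤ t i := H.anti (by omega) hk
    have h2 : t i ≠ t j := Nat.find_min hex (by omega)
    rw [← hkt] at h2
    exact lt_of_le_of_ne h1 (Ne.symm h2)
  obtain ⟨u, hU, hult, hu1, hutie, hucost⟩ := up_move H hk hlead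
  -- first later index with small coordinate
  have hex2 : ∃ m, k < m ∧ (S.n ≤ m ∨ Real.log (x m) ≤ t k) := ⟨S.n, hk, Or.inl le_rfl⟩
  set m := Nat.find hex2 with hmdef
  have hm1 : k < m := (Nat.find_spec hex2).1
  have hm2 : S.n ≤ m ∨ Real.log (x m) ≤ t k := (Nat.find_spec hex2).2
  have hm3 : m ≤ S.n := Nat.find_min' hex2 ⟨hk, Or.inl le_rfl⟩
  obtain ⟨t', hA, hagree, hb⟩ := complete (hU.mono hm3) hm3 (fun l => Real.log (x l))
    (log_step hpos hanti) (fun i hi hmn => by
      have h1 : Real.log (x m) ≤ t k := hm2.resolve_left (by omega)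
      have h2 : (0 : ℝ) ≤ 2 * m * S.T := by positivity
      have h3 := hutie i (by omega)
      linarith)
  have hxk := hpos k hk
  set B := Real.exp (t k + S.Lo t) with hB
  have hBpos : 0 < B := Real.exp_pos _
  have hcost : ∀ l, k ≤ l → l < m →
      (u k - t l) * x l - 3 * B ≤ S.term x t' l - S.term x t l := by
    intro l h1 h2
    have hl : l < S.n := by omega
    rw [term_congr (fun i hi => hagree i (by omega))]
    unfold term
    have h3 := hucost l h1 hl
    have h4 : Real.exp (u l - S.γ u l) ≤ 3 * B := by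
      calc Real.exp (u l - S.γ u l) ≤ Real.exp (t k + S.Lo t + 1) := Real.exp_le_exp.2 h3
        _ = B * Real.exp 1 := by rw [Real.exp_add]
        _ ≤ B * 3 := mul_le_mul_of_nonneg_left
            (le_trans Real.exp_one_lt_d9.le (by norm_num)) hBpos.le
        _ = 3 * B := by ring
    have h5 := Real.exp_pos (t l - S.γ t l)
    rw [hutie l h1] at h4 ⊢
    nlinarith
  have hsum : x k - S.n * ((2 * S.n + 4) * S.T * B) ≤
      ∑ l ∈ range S.n, (S.term x t' l - S.term x t l) := by
    have hE : 3 * B ≤ (2 * S.n + 4) * S.T * B :=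
      mul_le_mul_of_nonneg_right (by nlinarith) hBpos.le
    apply sum_ge_single hk
    · have h1 := hcost k le_rfl hm1
      nlinarith
    · intro l hl
      rcases Nat.lt_or_ge l k with h1 | h1
      · rw [term_congr (fun i hi => hagree i (by omega)),
          term_congr (fun i hi => hult i (by omega))]
        linarith
      rcases Nat.lt_or_ge l m with h2 | h2
      · have h3 := hcost l h1 h2
        have h4 : t l ≤ t k := H.anti h1 hl
        have h5 := hpos l hl
        nlinarith
      · have h3 := term_ge hl (hpos l hl) (hb l h2 hl).1 (hb l h2 hl).2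
        have h4 := term_le (t := t) hl (hpos l hl)
        have h5 : Real.log (x m) ≤ t k := hm2.resolve_left (by omega)
        have h6 : x l ≤ B := by
          calc x l ≤ x m := hanti m l h2 hl
            _ = Real.exp (Real.log (x m)) := (Real.exp_log (hpos m (by omega))).symm
            _ ≤ B := Real.exp_le_exp.2 (by linarith)
        have h7 : (2 * S.n + 1) * S.T * x l ≤ (2 * S.n + 1) * S.T * B :=
          mul_le_mul_of_nonneg_left h6 (by positivity)
        have h8 : 0 ≤ S.T * B := by positivity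
        nlinarith
  rw [Finset.sum_sub_distrib] at hsum
  have hm := hmax t' hA
  unfold val at hm
  have hη' := hη k hk
  have h13 := S.hexp
  have e : S.T0 * S.K ^ 2 ^ (S.n + 1) = S.T := rfl
  rw [e] at h13
  have h14 : x k ≤ Real.exp S.T0 * B := by
    have h15 : (4 * (S.n : ℝ) ^ 2 + 8 * S.n + 6) * S.T * B ≤ Real.exp S.T0 * B :=
      mul_le_mul_of_nonneg_right h13 hBpos.le
    have h8 : 0 ≤ S.T * B := by positivity
    nlinarith
  have h16 : Real.log (x j) ≤ S.T0 + (t k + S.Lo t) := by
    rw [Real.log_le_iff_le_exp (hpos j hj), Real.exp_add]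
    exact le_trans (hanti k j hkj hj) h14
  linarith

lemma exists_good {x : ℕ → ℝ} (hpos : ∀ j < S.n, 0 < x j)
    (hanti : ∀ i j, i ≤ j → j < S.n → x j ≤ x i) :
    ∃ t, S.Adm t S.n ∧ ∀ j < S.n,
      x j * Real.log (x j) - x j - 2 * S.n * S.T * x j ≤ S.term x t j := by
  obtain ⟨t', hA, _, hb⟩ := complete (S := S) (t := fun _ => 0) (k := 0)
    (fun j hj => by omega) (Nat.zero_le _) (fun l => Real.log (x l))
    (log_step hpos hanti) (fun i hi _ => by omega)
  exact ⟨t', hA, fun j hj => term_ge hj (hpos j hj) (hb j (Nat.zero_le _) hj).1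
    (hb j (Nat.zero_le _) hj).2⟩

end Sys

end Vale.Agent.P072
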